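import Vale.Agent.P315.H838.TopW
import Vale.Agent.P315.H763.PlugW
import Vale.Agent.P315.H295.Cls

/-!
P315, milestone 2: the classes of the static blocks (`H295.clsR`, ratio `W / X`) are the classes of
the machines (`H801.actD` of the natural values), for one top.
-/

set_option autoImplicit false

open Finset

namespace Vale.Agent.P315.H838

open Vale.Agent.P315.Acc Vale.Agent.P315.H801 Vale.Agent.P315.H808

theorem cdiv_le_iff {X c d : ℕ} (hc : 0 < c) : cdiv X c ≤ d ↔ X ≤ c * d := by
  unfold cdiv
  rw [Nat.div_le_iff_le_mul_add_pred hc]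
  omega

theorem lt_cdiv_iff {X c d : ℕ} (hc : 0 < c) : d < cdiv X c ↔ c * d < X := by
  rw [← not_le, ← not_le, cdiv_le_iff hc]

/-- Own number of a static block, and the offset. -/
theorem exists_off (z : ℤ) {len : ℕ} (hlen : 0 < len) :
    ∃ (off : ℕ) (j0 : ℤ), off < len ∧ j0 * len - off = z := by
  have hl : (0 : ℤ) < len := by exact_mod_cast hlen
  refine ⟨((-z) % len).toNat, -((-z) / len), ?_, ?_⟩
  · have h1 := Int.emod_lt_of_pos (-z) hl
    have h2 := Int.emod_nonneg (-z) hl.ne'
    omega
  · have h2 := Int.emod_nonneg (-z) hl.ne'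
    rw [Int.toNat_of_nonneg h2]
    have h3 := Int.emod_add_mul_ediv (-z) len
    linarith

section

variable {M n : ℕ} (A : Along M n) [Nonempty (Fin (M ^ n))] {hM : 0 < M} {lo : ℤ}
    {smax NB D0 : ℕ} {q : ℕ → ℕ} {hD0 : 0 < D0} {hn : 2 ^ smax ∣ n}
    {hq : ∀ j i, j < n → i < M ^ (n - j) → A.sft j i ≤ q j}
    {hfin : (∑ l ∈ range n, (q l : ℤ)) ≤ lo + (NB * (16 ^ smax * D0) : ℕ)}

/-- Class of a real drop in terms of the natural drop. -/
theorem cls_real {W : ℝ} (hW : 0 < W) {X l d : ℕ} (hX : 0 < X) {m : ℝ} (hm : m = (d : ℝ) / W) :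
    ((1 / 2 : ℝ) ^ (l + 1) ≤ W / X * m ∧ W / X * m < (1 / 2 : ℝ) ^ l) ↔
      cdiv X (2 ^ (l + 1)) ≤ d ∧ d < cdiv X (2 ^ l) := by
  have hX' : (0 : ℝ) < X := by exact_mod_cast hX
  have e1 : W / X * m = (d : ℝ) / X := by
    rw [hm]; field_simp
  rw [e1, cdiv_le_iff (by positivity), lt_cdiv_iff (by positivity), le_div_iff₀ hX',
    div_lt_iff₀ hX']
  have key : ∀ t : ℕ, (1 / 2 : ℝ) ^ t * X = X / 2 ^ t := fun t => by
    rw [one_div, inv_pow]; field_simp
  rw [key, key, div_le_iff₀ (by positivity), lt_div_iff₀ (by positivity)]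
  constructor
  · rintro ⟨h1, h2⟩
    refine ⟨?_, ?_⟩
    · rw [mul_comm]; exact_mod_cast h1
    · rw [mul_comm]; exact_mod_cast h2
  · rintro ⟨h1, h2⟩
    rw [mul_comm] at h1 h2
    exact ⟨by exact_mod_cast h1, by exact_mod_cast h2⟩

/-- **The classes.** `WZ` = value of the top at the own index, `V` = its natural values in the
rounds. -/
theorem cls_top (R : Acc.Mach (A.cut hM lo smax NB D0 q hD0 hn hq hfin))
    {r : ℕ → ℕ → Fin (M ^ n) → ℝ} {s a o l : ℕ} {x : Fin (M ^ n)} {WZ : ℤ → ℝ} {W : ℝ}
    (hW : 0 < W) (hm : ∀ k, R.m o s a x k =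
      (WZ (A.own lo s a x ((A.cut hM lo smax NB D0 q hD0 hn hq hfin).b0 o s k)) -
        WZ (A.own lo s a x ((A.cut hM lo smax NB D0 q hD0 hn hq hfin).b1 o s k))) / W)
    {V : ℕ → ℕ} {H : ℕ} (hV : ∀ κ : ℕ, WZ ((κ : ℤ) - H) = V κ) (hVa : ∀ κ, V (κ + 1) ≤ V κ)
    {c : ℕ} (hneg : ∀ b b' : ℤ, b + H ≤ c → b' + H ≤ c → WZ b = WZ b')
    {X : ℕ} (hX : 0 < X) (hr : r s a x = W / X) {len off : ℕ} (hc : len ≤ c)
    (hoff : off < len) {j0 : ℤ}
    (hlen : len = (A.cut hM lo smax NB D0 q hD0 hn hq hfin).D s)
    (hj0 : j0 * len - off = lo + o + H - A.S (a * 2 ^ s + 2 ^ s) x) :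
    (∀ k : ℕ, H295.clsR R r o s a l x k → (off : ℤ) ≤ (k + j0) * len) ∧
    (∀ k j : ℕ, (j : ℤ) = k + j0 →
      ((cdiv X (2 ^ (l + 1)) ≤ V (blo len off j) - V (blo len off (j + 1)) ∧
        V (blo len off j) - V (blo len off (j + 1)) < cdiv X (2 ^ l)) ↔
        H295.clsR R r o s a l x k)) := by
  -- own indices of the ends of a block
  have hb0 : ∀ k : ℕ, A.own lo s a x ((A.cut hM lo smax NB D0 q hD0 hn hq hfin).b0 o s k) =
      (k + j0) * len - off - H := by
    intro k
    unfold Along.own Acc.Sys.b0
    rw [← hlen]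
    push_cast
    have h2 : ((k : ℤ) + j0) * len = k * len + j0 * len := by ring
    rw [h2]
    linarith
  have hb1 : ∀ k : ℕ, A.own lo s a x ((A.cut hM lo smax NB D0 q hD0 hn hq hfin).b1 o s k) =
      (k + j0 + 1) * len - off - H := by
    intro k
    unfold Along.own Acc.Sys.b1
    rw [← hlen]
    push_cast
    have h2 : ((k : ℤ) + j0 + 1) * len = (k + 1) * len + j0 * len := by ring
    rw [h2]
    linarith
  have hlen0 : 0 < len := by omega
  have hmono : Antitone V := antitone_nat_of_succ_le hVa
  -- a block that starts before the round 0 has no drop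
  have hsmall : ∀ k : ℕ, (k + j0) * len < (off : ℤ) → R.m o s a x k = 0 := by
    intro k hk
    rw [hm k, hb0, hb1, hneg ((k + j0) * len - off - H) ((k + j0 + 1) * len - off - H)
      (by
        have : (0 : ℤ) ≤ c := Int.natCast_nonneg c
        linarith)
      (by
        have h1 : ((k : ℤ) + j0 + 1) * len = (k + j0) * len + len := by ring
        have h2 : (len : ℤ) ≤ c := by exact_mod_cast hc
        linarith), sub_self, zero_div]
  refine ⟨fun k hk => ?_, fun k j hj => ?_⟩
  · by_contra hcon
    have h1 := hsmall k (not_le.1 hcon)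
    have h2 := hk.1
    rw [h1, mul_zero] at h2
    have : (0 : ℝ) < (1 / 2) ^ (l + 1) := by positivity
    linarith
  · by_cases hk : (off : ℤ) ≤ (k + j0) * len
    · -- a full block
      have h0 : ((blo len off j : ℕ) : ℤ) = (k + j0) * len - off := by
        unfold blo
        rw [Nat.cast_sub (by
          have : (off : ℤ) ≤ ((j * len : ℕ) : ℤ) := by push_cast; rw [hj]; exact hk
          exact_mod_cast this)]
        push_cast
        rw [hj]
      have h1 : ((blo len off (j + 1) : ℕ) : ℤ) = (k + j0 + 1) * len - off := by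
        unfold blo
        rw [Nat.cast_sub (by
          have h3 : ((off : ℕ) : ℤ) ≤ ((j * len : ℕ) : ℤ) := by push_cast; rw [hj]; exact hk
          have h4 : off ≤ j * len := by exact_mod_cast h3
          have h5 : (j + 1) * len = j * len + len := by ring
          omega)]
        push_cast
        rw [hj]
      have hdm : R.m o s a x k =
          ((V (blo len off j) - V (blo len off (j + 1)) : ℕ) : ℝ) / W := by
        rw [hm k, hb0, hb1, ← h0, ← h1, hV, hV, Nat.cast_sub (hmono (by
          unfold blo
          have h5 : (j + 1) * len = j * len + len := by ring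
          omega))]
      have h6 := cls_real (l := l) hW hX hdm
      unfold H295.clsR
      rw [hr, h6]
    · -- a partial block
      have hk' := not_le.1 hk
      have h1 := hsmall k hk'
      constructor
      · intro h2
        exfalso
        have h3 : V (blo len off j) = V (blo len off (j + 1)) := by
          have h4 : ((j * len : ℕ) : ℤ) < off := by push_cast; rw [hj]; exact hk'
          have h5 : j * len < off := by exact_mod_cast h4
          have h6 : (j + 1) * len = j * len + len := by ring
          have h7 : blo len off j ≤ len := by unfold blo; omega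
          have h8 : blo len off (j + 1) ≤ len := by unfold blo; omega
          have h9 : (V (blo len off j) : ℝ) = V (blo len off (j + 1)) := by
            rw [← hV, ← hV]
            refine hneg _ _ ?_ ?_
            · have : ((blo len off j : ℕ) : ℤ) ≤ c := by exact_mod_cast h7.trans hc
              linarith
            · have : ((blo len off (j + 1) : ℕ) : ℤ) ≤ c := by exact_mod_cast h8.trans hc
              linarith
          exact_mod_cast h9
        rw [h3, Nat.sub_self] at h2
        have h4 := (cdiv_le_iff (X := X) (c := 2 ^ (l + 1)) (d := 0) (by positivity)).1 h2.1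
        omega
      · intro h2
        exfalso
        have h3 := h2.1
        rw [h1, mul_zero] at h3
        have : (0 : ℝ) < (1 / 2) ^ (l + 1) := by positivity
        linarith

end

end Vale.Agent.P315.H838
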