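import Vale.Agent.P315.H808.SysOf
import Vale.Agent.P315.H808.AlgAlong

/-!
P315: the units of a region in slab form. Top = slab `i` of level `j + e`, units = slabs
`i * M ^ e + u`, `u < M ^ e`, of level `j`.
-/

set_option autoImplicit false

open Finset

namespace Vale.Agent.P315.H808

namespace Along

variable {M n : ℕ} (A : Along M n)

/-- Shift between the slab `k` of level `j` and its ancestor `e` levels above. -/
def US (j e k : ℕ) : ℕ := ∑ l ∈ range e, A.sft (j + l) (k / M ^ l)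

theorem unit_lt {j e i u : ℕ} (hj : j + e ≤ n) (hi : i < M ^ (n - (j + e))) (hu : u < M ^ e) :
    i * M ^ e + u < M ^ (n - j) := by
  have h1 : n - j = (n - (j + e)) + e := by omega
  rw [h1, pow_add]
  calc i * M ^ e + u < i * M ^ e + M ^ e := by omega
    _ = (i + 1) * M ^ e := by ring
    _ ≤ M ^ (n - (j + e)) * M ^ e := Nat.mul_le_mul_right _ hi

theorem unit_div {e i u : ℕ} (hu : u < M ^ e) : (i * M ^ e + u) / M ^ e = i := by
  rw [mul_comm, Nat.mul_add_div (by omega), Nat.div_eq_of_lt hu, add_zero]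

theorem unit_mod {e i u : ℕ} (hu : u < M ^ e) : (i * M ^ e + u) % M ^ e = u := by
  rw [mul_comm, Nat.mul_add_mod, Nat.mod_eq_of_lt hu]

theorem bs_units (f : ℕ → ℝ) (j e i : ℕ) :
    bs M f (j + e) i = ∑ u ∈ range (M ^ e), bs M f j (i * M ^ e + u) := by
  unfold bs
  have h : M ^ (j + e) = M ^ e * M ^ j := by rw [pow_add, mul_comm]
  rw [h, sum_range_mul (fun r => f (i * (M ^ e * M ^ j) + r))]
  refine sum_congr rfl fun m _ => sum_congr rfl fun r _ => ?_
  congr 1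
  ring

theorem W_units (j e i : ℕ) :
    A.W (j + e) i = ∑ u ∈ range (M ^ e), A.W j (i * M ^ e + u) := bs_units _ _ _ _

theorem DE_units (j e i : ℕ) :
    A.DE (j + e) i = ∑ u ∈ range (M ^ e), A.DE j (i * M ^ e + u) := bs_units _ _ _ _

theorem S_unit {j e : ℕ} (hj : j + e ≤ n) (x : ℕ) :
    A.S j x = A.US j e (x / M ^ j) + A.S (j + e) x := by
  induction e with
  | zero => simp [US]
  | succ e ih =>
    rw [ih (by omega), A.S_succ (j := j + e) (by omega) x]
    unfold US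
    rw [sum_range_succ]
    have h1 : x / M ^ j / M ^ e = x / M ^ (j + e) := by rw [Nat.div_div_eq_div_mul, ← pow_add]
    rw [h1, ← add_assoc j e 1]
    ring

/-- Sum over the leaves of a slab of a function of the unit. -/
theorem sum_units (hM : 0 < M) {j e : ℕ} (hj : j + e ≤ n) {i : ℕ} (hi : i < M ^ (n - (j + e)))
    (g : ℕ → ℝ) :
    ∑ y ∈ univ.filter (fun y : Fin (M ^ n) => (y : ℕ) / M ^ (j + e) = i),
      A.w y * g ((y : ℕ) / M ^ j) =
      ∑ u ∈ range (M ^ e), A.W j (i * M ^ e + u) * g (i * M ^ e + u) := by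
  rw [sum_fib hM hj hi (fun y => A.w y * g (y / M ^ j)), bs_units]
  refine sum_congr rfl fun m _ => ?_
  unfold W bs
  rw [sum_mul]
  refine sum_congr rfl fun r hr => ?_
  have hp : 0 < M ^ j := Nat.pow_pos hM
  have : ((i * M ^ e + m) * M ^ j + r) / M ^ j = i * M ^ e + m := by
    rw [mul_comm, Nat.mul_add_div hp, Nat.div_eq_of_lt (mem_range.1 hr), add_zero]
  simp only [this]

/-- Weighted average over the leaves of a slab of a function of the unit. -/
theorem avg_units (hM : 0 < M) {j e : ℕ} (hj : j + e ≤ n) (x : Fin (M ^ n)) (g : ℕ → ℝ) :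
    Acc.avg (fun y : Fin (M ^ n) => A.w y) (fun j y => (y : ℕ) / M ^ j) (j + e)
        (fun y => g ((y : ℕ) / M ^ j)) x =
      (∑ u ∈ range (M ^ e), A.W j ((x : ℕ) / M ^ (j + e) * M ^ e + u) *
        g ((x : ℕ) / M ^ (j + e) * M ^ e + u)) / A.W (j + e) ((x : ℕ) / M ^ (j + e)) := by
  unfold Acc.avg
  have hi := quot_lt hM hj x
  rw [A.sum_units hM hj hi]
  congr 1
  exact sum_fib hM hj hi A.w

/-- The same for any function which is constant on the units. -/
theorem avg_units' (hM : 0 < M) {j e : ℕ} (hj : j + e ≤ n) (x : Fin (M ^ n))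
    {F : Fin (M ^ n) → ℝ} {g : ℕ → ℝ}
    (hF : ∀ y : Fin (M ^ n), (y : ℕ) / M ^ (j + e) = (x : ℕ) / M ^ (j + e) →
      F y = g ((y : ℕ) / M ^ j)) :
    Acc.avg (fun y : Fin (M ^ n) => A.w y) (fun j y => (y : ℕ) / M ^ j) (j + e) F x =
      (∑ u ∈ range (M ^ e), A.W j ((x : ℕ) / M ^ (j + e) * M ^ e + u) *
        g ((x : ℕ) / M ^ (j + e) * M ^ e + u)) / A.W (j + e) ((x : ℕ) / M ^ (j + e)) := by
  rw [← A.avg_units hM hj x g]
  unfold Acc.avg
  congr 1
  refine sum_congr rfl fun y hy => ?_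
  rw [hF y (by simpa using hy)]

/-- The curve of a unit in terms of the own index of the top. -/
theorem e_unit {j e : ℕ} (hj : j + e ≤ n) (lo : ℤ) {x y : ℕ}
    (h : y / M ^ (j + e) = x / M ^ (j + e)) (β : ℕ) :
    A.e lo j y β = A.ex j (y / M ^ j) (lo + β - A.S (j + e) x - A.US j e (y / M ^ j)) := by
  show A.ex j (y / M ^ j) (lo + β - A.S j y) = _
  congr 1
  rw [A.S_unit hj y, A.S_congr h]
  push_cast
  ring

/-- Average excess of the units below the slab `i` of level `j + e` at the own index `b`. -/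
noncomputable def VU (j e i : ℕ) (b : ℤ) : ℝ :=
  (∑ u ∈ range (M ^ e), A.W j (i * M ^ e + u) *
    A.ex j (i * M ^ e + u) (b - A.US j e (i * M ^ e + u))) / A.W (j + e) i

theorem VU_nonneg (hM : 0 < M) (j e i : ℕ) (b : ℤ) : 0 ≤ A.VU j e i b :=
  div_nonneg (sum_nonneg fun _ _ => mul_nonneg (A.W_pos hM _ _).le (A.ex_nonneg _ _ _))
    (A.W_pos hM _ _).le

/-- (H1) over `e` levels. -/
theorem H1_units (j e : ℕ) : ∀ i b, j + e ≤ n → i < M ^ (n - (j + e)) →
    A.C (j + e) i b ≤ ∑ u ∈ range (M ^ e), A.C j (i * M ^ e + u) (b - A.US j e (i * M ^ e + u)) := by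
  induction e with
  | zero =>
    intro i b _ _
    simp [US]
  | succ e ih =>
    intro i b hj hi
    have h1 := A.H1 (j + e) i b (by omega) (by simpa [add_assoc] using hi)
    rw [← add_assoc]
    refine h1.trans ?_
    have h2 : M ^ (e + 1) = M * M ^ e := by rw [pow_succ, mul_comm]
    rw [h2, sum_range_mul (fun u => A.C j (i * (M * M ^ e) + u)
      (b - A.US j (e + 1) (i * (M * M ^ e) + u)))]
    refine sum_le_sum fun m hm => ?_
    have hm' := mem_range.1 hm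
    have hc : i * M + m < M ^ (n - (j + e)) :=
      child_lt (by omega) (by simpa [add_assoc] using hi) hm'
    refine (ih (i * M + m) (b - A.sft (j + e) (i * M + m)) (by omega) hc).trans (le_of_eq ?_)
    refine sum_congr rfl fun u hu => ?_
    have hu' := mem_range.1 hu
    have e1 : (i * M + m) * M ^ e + u = i * (M * M ^ e) + (m * M ^ e + u) := by ring
    have e2 : A.US j (e + 1) (i * (M * M ^ e) + (m * M ^ e + u)) =
        A.US j e (i * (M * M ^ e) + (m * M ^ e + u)) + A.sft (j + e) (i * M + m) := by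
      unfold US
      rw [sum_range_succ, ← e1, unit_div hu']
    rw [e1, e2]
    congr 1
    push_cast
    ring

/-- The top excess is at most the average excess of the units. -/
theorem ex_le_VU (hM : 0 < M) {j e i : ℕ} (b : ℤ) (hj : j + e ≤ n)
    (hi : i < M ^ (n - (j + e))) : A.ex (j + e) i b ≤ A.VU j e i b := by
  unfold ex
  refine max_le (A.VU_nonneg hM _ _ _ _) ?_
  unfold VU
  refine div_le_div_of_nonneg_right ?_ (A.W_pos hM _ _).le
  have h1 := A.H1_units j e i b hj hi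
  have h2 : ∑ u ∈ range (M ^ e), A.C j (i * M ^ e + u) (b - A.US j e (i * M ^ e + u)) ≤
      ∑ u ∈ range (M ^ e), (A.DE j (i * M ^ e + u) + A.W j (i * M ^ e + u) *
        A.ex j (i * M ^ e + u) (b - A.US j e (i * M ^ e + u))) :=
    sum_le_sum fun u _ => A.C_le_ex hM _ _ _
  rw [sum_add_distrib, ← DE_units] at h2
  linarith

section

variable [Nonempty (Fin (M ^ n))] {hM : 0 < M} {lo : ℤ} {smax NB D0 : ℕ}
    {tr : ℕ → ℕ} {q : ℕ → ℕ} {hD0 : 0 < D0} {hn : 2 ^ smax ∣ n} {hmono : Monotone tr}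
    {hmar : ∀ b, b ≤ 16 ^ smax * D0 → tr b = tr 0}
    {hq : ∀ j i, j < n → i < M ^ (n - j) → A.sft j i ≤ q j}
    {hfin : (∑ l ∈ range n, (q l : ℤ)) ≤ lo + tr (NB * (16 ^ smax * D0))}

theorem top_le {s a : ℕ} (ha : a < n / 2 ^ s) : a * 2 ^ s + 2 ^ s ≤ n := by
  have h1 : (a + 1) * 2 ^ s ≤ n :=
    (Nat.mul_le_mul_right _ ha).trans (Nat.div_mul_le_self n (2 ^ s))
  have h3 : (a + 1) * 2 ^ s = a * 2 ^ s + 2 ^ s := by ring
  rwa [h3] at h1

/-- Averages of `Sys` in slab form. -/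
theorem sys_av {s a : ℕ} (ha : a < n / 2 ^ s) (x : Fin (M ^ n)) {F : Fin (M ^ n) → ℝ}
    {g : ℕ → ℝ} (hF : ∀ y : Fin (M ^ n), (y : ℕ) / M ^ (a * 2 ^ s + 2 ^ s) =
      (x : ℕ) / M ^ (a * 2 ^ s + 2 ^ s) → F y = g ((y : ℕ) / M ^ (a * 2 ^ s))) :
    (A.sys hM lo smax NB D0 tr q hD0 hn hmono hmar hq hfin).av ((a + 1) * 2 ^ s) F x =
      (∑ u ∈ range (M ^ 2 ^ s),
        A.W (a * 2 ^ s) ((x : ℕ) / M ^ (a * 2 ^ s + 2 ^ s) * M ^ 2 ^ s + u) *
          g ((x : ℕ) / M ^ (a * 2 ^ s + 2 ^ s) * M ^ 2 ^ s + u)) /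
        A.W (a * 2 ^ s + 2 ^ s) ((x : ℕ) / M ^ (a * 2 ^ s + 2 ^ s)) := by
  have h3 : (a + 1) * 2 ^ s = a * 2 ^ s + 2 ^ s := by ring
  unfold Acc.Sys.av
  rw [h3]
  exact A.avg_units' hM (top_le ha) x hF

/-- The curve of the top. -/
theorem sys_e_top {s a : ℕ} (ha : a < n / 2 ^ s) (x : Fin (M ^ n)) (b : ℕ) :
    (A.sys hM lo smax NB D0 tr q hD0 hn hmono hmar hq hfin).e ((a + 1) * 2 ^ s) x b =
      A.ex (a * 2 ^ s + 2 ^ s) ((x : ℕ) / M ^ (a * 2 ^ s + 2 ^ s))
        (lo + tr b - A.S (a * 2 ^ s + 2 ^ s) x) := by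
  have h3 : (a + 1) * 2 ^ s = a * 2 ^ s + 2 ^ s := by ring
  rw [h3, A.sys_e (top_le ha)]
  rfl

/-- The curve of a unit. -/
theorem sys_e_unit {s a : ℕ} (ha : a < n / 2 ^ s) (x y : Fin (M ^ n))
    (h : (y : ℕ) / M ^ (a * 2 ^ s + 2 ^ s) = (x : ℕ) / M ^ (a * 2 ^ s + 2 ^ s)) (b : ℕ) :
    (A.sys hM lo smax NB D0 tr q hD0 hn hmono hmar hq hfin).e (a * 2 ^ s) y b =
      A.ex (a * 2 ^ s) ((y : ℕ) / M ^ (a * 2 ^ s)) (lo + tr b - A.S (a * 2 ^ s + 2 ^ s) x -
        A.US (a * 2 ^ s) (2 ^ s) ((y : ℕ) / M ^ (a * 2 ^ s))) := by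
  have h1 := top_le ha
  rw [A.sys_e ((Nat.le_add_right _ _).trans h1)]
  exact A.e_unit h1 lo h (tr b)

theorem sys_V {s a : ℕ} (ha : a < n / 2 ^ s) (x : Fin (M ^ n)) (b : ℕ) :
    (A.sys hM lo smax NB D0 tr q hD0 hn hmono hmar hq hfin).V s a x b =
      A.VU (a * 2 ^ s) (2 ^ s) ((x : ℕ) / M ^ (a * 2 ^ s + 2 ^ s))
        (lo + tr b - A.S (a * 2 ^ s + 2 ^ s) x) := by
  unfold Acc.Sys.V
  rw [A.sys_av ha x (g := fun k => A.ex (a * 2 ^ s) k (lo + tr b - A.S (a * 2 ^ s + 2 ^ s) x -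
    A.US (a * 2 ^ s) (2 ^ s) k)) fun y hy => A.sys_e_unit ha x y hy b]
  rfl

theorem sys_G {s a : ℕ} (ha : a < n / 2 ^ s) (x : Fin (M ^ n)) (b : ℕ) :
    (A.sys hM lo smax NB D0 tr q hD0 hn hmono hmar hq hfin).G s a x b =
      A.VU (a * 2 ^ s) (2 ^ s) ((x : ℕ) / M ^ (a * 2 ^ s + 2 ^ s))
        (lo + tr b - A.S (a * 2 ^ s + 2 ^ s) x) -
      A.ex (a * 2 ^ s + 2 ^ s) ((x : ℕ) / M ^ (a * 2 ^ s + 2 ^ s))
        (lo + tr b - A.S (a * 2 ^ s + 2 ^ s) x) := by
  unfold Acc.Sys.G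
  rw [A.sys_V ha, A.sys_e_top ha]

end

end Along

/-! ### The shift of a unit of a chain -/

namespace Chain

open Vale.Agent.P315.C

variable {P : Par} {vis hid : Leaf} {n : ℕ} (K : Chain P vis hid n)

/-- The penalties add up along the chain, between level `j` and level `j + e`. -/
def PenAdd : Prop := ∀ e j i : ℕ, j + (e + 1) ≤ n → i < P.M ^ (n - j) →
  P.pen (j + (e + 1)) (e + 1) (K.lab (j + (e + 1)) (i / P.M ^ (e + 1))) (K.lab j i) =
    P.pen (j + (e + 1)) e (K.lab (j + (e + 1)) (i / P.M ^ (e + 1)))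
      (K.lab (j + 1) (i / P.M)) +
    P.pen (j + 1) 1 (K.lab (j + 1) (i / P.M)) (K.lab j i)

theorem Xi_mod (P : Par) (ω : Rnd) (j e m : ℕ) : Xi P ω j e (m % P.M ^ e) = Xi P ω j e m := by
  unfold Xi
  refine Finset.sum_congr rfl fun y hy => ?_
  rw [Finset.mem_range] at hy
  have h1 : P.M ^ e = P.M ^ (e - 1 - y) * P.M ^ (y + 1) := by
    rw [← pow_add]
    congr 1
    omega
  have h2 : m % P.M ^ e / P.M ^ (e - 1 - y) % P.M = m / P.M ^ (e - 1 - y) % P.M := by
    rw [h1, Nat.mod_mul_right_div_self, pow_succ]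
    exact Nat.mod_mod_of_dvd _ (Dvd.intro_left _ rfl)
  rw [h2]

variable (mc : Mach) (ω : Rnd)

/-- The index shift between a unit and the top is the one of the machines. -/
theorem US_eq (h0 : ∃ p, P.μ ∣ p ∧ p ≤ P.B ∧ P.adm p p)
    (hle : ∀ i p q, P.adm p q → hid i p q ≤ vis i p q) (hp0 : ∀ j a, P.pen j 0 a a = 0)
    (hp : K.PenAdd) (e : ℕ) : ∀ (j k : ℕ), j + e ≤ n → k < P.M ^ (n - j) →
      (K.along mc ω h0 hle).US j e k = Xi P ω (j + e) e k +
          P.pen (j + e) e (K.lab (j + e) (k / P.M ^ e)) (K.lab j k) := by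
  induction e with
  | zero =>
    intro j k _ _
    simp [Along.US, Xi, hp0]
  | succ e ih =>
    intro j k hj hk
    have hk1 : k / P.M < P.M ^ (n - (j + 1)) := by
      rw [Nat.div_lt_iff_lt_mul (by
        by_contra h
        have : P.M = 0 := by omega
        rw [this] at hk
        have h2 : n - j ≠ 0 := by omega
        rw [zero_pow h2] at hk
        omega), ← pow_succ]
      have : n - (j + 1) + 1 = n - j := by omega
      rwa [this]
    have h1 := ih (j + 1) (k / P.M) (by omega) hk1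
    have e0 : j + 1 + e = j + (e + 1) := by ring
    rw [e0] at h1
    have e1 : (K.along mc ω h0 hle).US j (e + 1) k =
        (K.along mc ω h0 hle).US (j + 1) e (k / P.M) + K.sft ω j k := by
      unfold Along.US
      rw [sum_range_succ']
      congr 1
      · refine sum_congr rfl fun l _ => ?_
        rw [Nat.div_div_eq_div_mul, ← pow_succ']
        congr 1
        ring
      · rw [pow_zero, Nat.div_one]
        rfl
    have e2 : k / P.M / P.M ^ e = k / P.M ^ (e + 1) := by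
      rw [Nat.div_div_eq_div_mul, ← pow_succ']
    have e5 : Xi P ω (j + (e + 1)) (e + 1) k =
        Xi P ω (j + (e + 1)) e (k / P.M) + ω.xi (j + 1) (k % P.M) := by
      unfold Xi
      rw [Finset.sum_range_succ]
      congr 1
      · refine Finset.sum_congr rfl fun y hy => ?_
        rw [Finset.mem_range] at hy
        have e6 : e + 1 - 1 - y = (e - 1 - y) + 1 := by omega
        rw [e6, Nat.div_div_eq_div_mul, ← pow_succ']
      · have e7 : j + (e + 1) - e = j + 1 := by omega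
        have e8 : e + 1 - 1 - e = 0 := by omega
        rw [e7, e8, pow_zero, Nat.div_one]
    rw [e1, h1, e5, hp e j k hj hk, e2]
    unfold sft
    ring

/-- The unit costs which the machines of scale `s` see on the chain are the certified costs of the
chain at the same static index. -/
theorem hist_eq (h0 : ∃ p, P.μ ∣ p ∧ p ≤ P.B ∧ P.adm p p)
    (hle : ∀ i p q, P.adm p q → hid i p q ≤ vis i p q) (hp0 : ∀ j a, P.pen j 0 a a = 0)
    (hp : K.PenAdd) (s j i κ u : ℕ) (hj : j + 2 ^ s ≤ n) (hi : i < P.M ^ (n - (j + 2 ^ s)))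
    (hu : u < P.M ^ 2 ^ s) :
    ((hist P ω vis hid (rd P mc ω vis hid) (j + 2 ^ s) i (K.lab (j + 2 ^ s) i) s κ u
      (K.lab j (i * P.M ^ 2 ^ s + u)) (K.pos ((i * P.M ^ 2 ^ s + u) * P.M ^ j))
      (K.pos ((i * P.M ^ 2 ^ s + u + 1) * P.M ^ j)) : ℕ) : ℝ) =
    (K.along mc ω h0 hle).C j (i * P.M ^ 2 ^ s + u)
      (κ - P.H - (K.along mc ω h0 hle).US j (2 ^ s) (i * P.M ^ 2 ^ s + u)) := by
  have h1 := K.US_eq mc ω h0 hle hp0 hp (2 ^ s) j (i * P.M ^ 2 ^ s + u) hj
    (Along.unit_lt hj hi hu)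
  have h3 : uidx P ω (j + 2 ^ s) (K.lab (j + 2 ^ s) i) s κ u (K.lab j (i * P.M ^ 2 ^ s + u)) =
      κ - P.H - (K.along mc ω h0 hle).US j (2 ^ s) (i * P.M ^ 2 ^ s + u) := by
    unfold uidx
    rw [h1, Along.unit_div hu, ← Xi_mod P ω (j + 2 ^ s) (2 ^ s) (i * P.M ^ 2 ^ s + u),
      Along.unit_mod hu]
    push_cast
    ring
  unfold hist
  rw [Nat.add_sub_cancel, h3]
  rfl

end Chain

end Vale.Agent.P315.H808
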