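import Vale.Agent.P315.C.Alg
import Vale.Agent.P315.H140.Best
import Vale.Agent.P315.H808.Along

/-!
P315, row C-MASS: the curves of a run of `C/Alg.lean` along a chain of regions (the regions of one
path), normalised by weights of the rows. Everything is generic in the labels, in the penalties and
in the weights, so that it serves the additive and the multiplicative theorem. The abstract half
(normalised excess, static coordinate) is `H808/Along.lean`.
-/

set_option autoImplicit false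

namespace Vale.Agent.P315.H838

open C H140 Finset

/-! ### Read sets -/

section read
variable {P : Par} {mc : Mach} {ω : Rnd} {vis hid : Leaf}

theorem rd_mono (j : ℕ) : ∀ (i a : ℕ) {b b' : ℤ}, b ≤ b' →
    rd P mc ω vis hid j i a b ⊆ rd P mc ω vis hid j i a b' := by
  induction j with
  | zero =>
    intro i a b b' h
    rw [rd_zero, rd_zero]
    by_cases hb : b < 0
    · simp [hb]
    · rw [if_neg hb, if_neg (by omega)]
  | succ j ih =>
    intro i a b b' h
    rw [rd_succ]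
    unfold stepRead
    refine Finset.union_subset_union ?_ ?_
    · refine Finset.biUnion_mono fun m _ => Finset.biUnion_mono fun a' _ => ?_
      exact ih _ _ (by omega)
    · refine Finset.biUnion_mono fun s _ => Finset.biUnion_mono fun q _ => ?_
      refine Finset.biUnion_subset_biUnion_of_subset_left _ ?_
      intro κ hκ
      rw [Finset.mem_range] at hκ ⊢
      exact lt_of_lt_of_le hκ (Int.toNat_le_toNat (by omega))

theorem rd_child {j i a m a' : ℕ} (hm : m < P.M) (ha : a' ∈ P.kids (j + 1) a) (b : ℤ) :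
    rd P mc ω vis hid j (i * P.M + m) a' (b - ω.xi (j + 1) m - P.pen (j + 1) 1 a a') ⊆
      rd P mc ω vis hid (j + 1) i a b := by
  rw [rd_succ]
  unfold stepRead
  refine subset_trans ?_ Finset.subset_union_left
  intro x hx
  rw [Finset.mem_biUnion]
  refine ⟨m, Finset.mem_range.2 hm, ?_⟩
  rw [Finset.mem_biUnion]
  exact ⟨a', ha, hx⟩

theorem rd_neg (j : ℕ) : ∀ (i a : ℕ) {b : ℤ}, b < -(P.H : ℤ) →
    rd P mc ω vis hid j i a b = ∅ := by
  induction j with
  | zero =>
    intro i a b h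
    rw [rd_zero, if_pos (by omega)]
  | succ j ih =>
    intro i a b h
    rw [rd_succ]
    unfold stepRead
    rw [Finset.union_eq_empty]
    constructor
    · refine Finset.eq_empty_of_forall_notMem fun x hx => ?_
      simp only [Finset.mem_biUnion] at hx
      obtain ⟨m, _, a', _, h1⟩ := hx
      rw [show j + 1 - 1 = j from rfl, ih _ _ (by omega)] at h1
      exact absurd h1 (Finset.notMem_empty _)
    · have h0 : (b + P.H + 1).toNat = 0 := Int.toNat_of_nonpos (by omega)
      rw [h0]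
      ext x
      simp

theorem known_anti (hv : ∀ i p q, hid i p q ≤ vis i p q) {R R' : Finset (ℕ × ℕ)} (h : R ⊆ R')
    (i p q : ℕ) : known P vis hid R' i p q ≤ known P vis hid R i p q := by
  unfold known
  by_cases h1 : ∃ a, (i, a) ∈ R ∧ P.cov a p
  · obtain ⟨a, ha, hc⟩ := h1
    rw [if_pos ⟨a, h ha, hc⟩, if_pos ⟨a, ha, hc⟩]
  · rw [if_neg h1]
    split_ifs
    · exact hv i p q
    · exact le_rfl

theorem hid_le_known (hv : ∀ i p q, hid i p q ≤ vis i p q) (R : Finset (ℕ × ℕ))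
    (i p q : ℕ) : hid i p q ≤ known P vis hid R i p q := by
  unfold known
  split_ifs
  · exact le_rfl
  · exact hv i p q

theorem known_le_vis (hv : ∀ i p q, hid i p q ≤ vis i p q) (R : Finset (ℕ × ℕ))
    (i p q : ℕ) : known P vis hid R i p q ≤ vis i p q := by
  unfold known
  split_ifs
  · exact hv i p q
  · exact le_rfl

end read

/-! ### Chains -/

/-- A chain of regions, one for every slab: the positions at the row boundaries, the labels, the
price `Dp i` of row `i` when its cell has been read, and the excess `w i` of the visible price. -/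
structure Chain (P : Par) (vis hid : Leaf) (n : ℕ) where
  pos : ℕ → ℕ
  lab : ℕ → ℕ → ℕ
  Dp : ℕ → ℝ
  w : ℕ → ℝ
  hw : ∀ i, 0 < w i
  kid : ∀ j < n, ∀ i < P.M ^ (n - (j + 1)), ∀ m < P.M,
    lab j (i * P.M + m) ∈ P.kids (j + 1) (lab (j + 1) i)
  cell : ∀ i < P.M ^ n, ∀ R : Finset (ℕ × ℕ), (i, lab 0 i) ∈ R →
    (best P (known P vis hid R) i 1 (pos i) (pos (i + 1)) : ℝ) ≤ Dp i
  visle : ∀ i < P.M ^ n, (best P vis i 1 (pos i) (pos (i + 1)) : ℝ) ≤ Dp i + w i

namespace Chain

variable {P : Par} {vis hid : Leaf} {n : ℕ} (c : Chain P vis hid n)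

/-- Jitter and penalty between slab `i` of level `j` and its parent. -/
def sft (ω : Rnd) (j i : ℕ) : ℕ :=
  ω.xi (j + 1) (i % P.M) + P.pen (j + 1) 1 (c.lab (j + 1) (i / P.M)) (c.lab j i)

theorem div_child {M i m : ℕ} (hm : m < M) : (i * M + m) / M = i := by
  rw [Nat.mul_comm, Nat.mul_add_div (by omega), Nat.div_eq_of_lt hm, Nat.add_zero]

theorem mod_child {M i m : ℕ} (hm : m < M) : (i * M + m) % M = m := by
  rw [Nat.mul_comm, Nat.mul_add_mod, Nat.mod_eq_of_lt hm]

theorem sft_child (ω : Rnd) (j i : ℕ) {m : ℕ} (hm : m < P.M) :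
    c.sft ω j (i * P.M + m) =
      ω.xi (j + 1) m + P.pen (j + 1) 1 (c.lab (j + 1) i) (c.lab j (i * P.M + m)) := by
  unfold sft
  rw [div_child hm, mod_child hm]

variable (mc : Mach) (ω : Rnd)

/-- Read set of the region of slab `i` of level `j` at the own index `b`. -/
noncomputable def RS (j i : ℕ) (b : ℤ) : Finset (ℕ × ℕ) :=
  rd P mc ω vis hid j i (c.lab j i) b

/-- Certified cost of slab `i` of level `j` along the chain, at the own index `b`. -/
noncomputable def CC (j i : ℕ) (b : ℤ) : ℕ :=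
  cR P mc ω vis hid j i (c.lab j i) b (c.pos (i * P.M ^ j)) (c.pos ((i + 1) * P.M ^ j))

theorem CC_eq (j i : ℕ) (b : ℤ) : c.CC mc ω j i b =
    best P (known P vis hid (c.RS mc ω j i b)) (i * P.M ^ j) (P.M ^ j) (c.pos (i * P.M ^ j))
      (c.pos ((i + 1) * P.M ^ j)) := rfl

theorem RS_child {j : ℕ} (hj : j < n) {i : ℕ} (hi : i < P.M ^ (n - (j + 1))) {m : ℕ}
    (hm : m < P.M) (b : ℤ) :
    c.RS mc ω j (i * P.M + m) (b - c.sft ω j (i * P.M + m)) ⊆ c.RS mc ω (j + 1) i b := by
  unfold RS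
  have h := rd_child (mc := mc) (ω := ω) (vis := vis) (hid := hid) (i := i) hm
    (c.kid j hj i hi m hm) b
  have e : b - (c.sft ω j (i * P.M + m) : ℕ) = b - ω.xi (j + 1) m -
      P.pen (j + 1) 1 (c.lab (j + 1) i) (c.lab j (i * P.M + m)) := by
    rw [c.sft_child ω j i hm]
    push_cast
    ring
  rw [e]
  exact h

theorem CC_anti (hE : ∃ p q, Ed P p q) (hv : ∀ i p q, hid i p q ≤ vis i p q) (j i : ℕ)
    {b b' : ℤ} (h : b ≤ b') : c.CC mc ω j i b' ≤ c.CC mc ω j i b := by
  rw [CC_eq, CC_eq]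
  exact best_mono hE _ _ _ _ fun x _ p q _ => known_anti hv (rd_mono j _ _ h) _ _ _

/-- Exact subadditivity. -/
theorem CC_child (hE : ∃ p q, Ed P p q) (hv : ∀ i p q, hid i p q ≤ vis i p q) {j : ℕ}
    (hj : j < n) {i : ℕ} (hi : i < P.M ^ (n - (j + 1))) (b : ℤ) :
    c.CC mc ω (j + 1) i b ≤
      ∑ m ∈ range P.M, c.CC mc ω j (i * P.M + m) (b - c.sft ω j (i * P.M + m)) := by
  have h1 := best_slabs (P := P)
    (f := known P vis hid (c.RS mc ω (j + 1) i b)) hE (i * P.M ^ (j + 1)) P.M (P.M ^ j)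
    (fun m => c.pos ((i * P.M + m) * P.M ^ j))
  have e0 : P.M * P.M ^ j = P.M ^ (j + 1) := by rw [pow_succ, Nat.mul_comm]
  have e1 : (i * P.M + 0) * P.M ^ j = i * P.M ^ (j + 1) := by rw [pow_succ]; ring
  have e2 : (i * P.M + P.M) * P.M ^ j = (i + 1) * P.M ^ (j + 1) := by rw [pow_succ]; ring
  simp only [e0, e1, e2] at h1
  refine h1.trans (Finset.sum_le_sum fun m hm => ?_)
  rw [Finset.mem_range] at hm
  have e3 : i * P.M ^ (j + 1) + m * P.M ^ j = (i * P.M + m) * P.M ^ j := by rw [pow_succ]; ring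
  have e4 : (i * P.M + (m + 1)) = (i * P.M + m + 1) := by ring
  rw [e3, e4]
  exact best_mono hE _ _ _ _ fun x _ p q _ =>
    known_anti hv (c.RS_child mc ω hj hi hm b) _ _ _

/-- The data along the comparison path. -/
noncomputable def along (hE : ∃ p q, Ed P p q) (hv : ∀ i p q, hid i p q ≤ vis i p q) :
    H808.Along P.M n where
  C := fun j i b => c.CC mc ω j i b
  sft := c.sft ω
  d := c.Dp
  er := fun _ => 0
  w := c.w
  er_nonneg := fun _ => le_rfl
  w_pos := c.hw
  anti := fun j i _ _ b b' h => by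
    show ((c.CC mc ω j i b' : ℕ) : ℝ) ≤ ((c.CC mc ω j i b : ℕ) : ℝ)
    exact Nat.cast_le.2 (c.CC_anti mc ω hE hv j i h)
  H1 := fun j i b hj hi => by
    have := c.CC_child mc ω hE hv hj hi b
    exact_mod_cast this
  leaf := fun i b hi => by
    have h1 := c.visle i hi
    have h2 : c.CC mc ω 0 i b ≤ best P vis i 1 (c.pos i) (c.pos (i + 1)) := by
      rw [CC_eq]
      simp only [pow_zero, Nat.mul_one]
      exact best_mono hE _ _ _ _ fun x _ p q _ => known_le_vis hv _ _ _ _
    have h3 : (c.CC mc ω 0 i b : ℝ) ≤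
        (best P vis i 1 (c.pos i) (c.pos (i + 1)) : ℕ) := by exact_mod_cast h2
    linarith
  leaf' := fun i b hi hb => by
    have h2 := c.cell i hi (c.RS mc ω 0 i b) (by
      unfold RS
      rw [rd_zero, if_neg (by omega)]
      exact Finset.mem_singleton_self _)
    have h3 : c.CC mc ω 0 i b =
        best P (known P vis hid (c.RS mc ω 0 i b)) i 1 (c.pos i) (c.pos (i + 1)) := by
      rw [CC_eq]
      simp only [pow_zero, Nat.mul_one]
    rw [h3]
    linarith

/-! ### The exact case -/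

/-- The chain is an optimal route: the sum of the prices of the rows is at most the hidden cost
from the first to the last position. -/
def Opt : Prop := ∑ r ∈ range (P.M ^ n), c.Dp r ≤ best P hid 0 (P.M ^ n) (c.pos 0) (c.pos (P.M ^ n))

theorem row_lt {j : ℕ} (hj : j ≤ n) {i : ℕ} (hi : i < P.M ^ (n - j)) {r : ℕ}
    (hr : r < P.M ^ j) : i * P.M ^ j + r < P.M ^ n := by
  have h1 : (i + 1) * P.M ^ j ≤ P.M ^ (n - j) * P.M ^ j := Nat.mul_le_mul_right _ hi
  rw [← pow_add, Nat.sub_add_cancel hj] at h1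
  have h2 : (i + 1) * P.M ^ j = i * P.M ^ j + P.M ^ j := by ring
  omega

/-- Hidden cost of some consecutive rows of the chain. -/
theorem best_hid_le (hE : ∃ p q, Ed P p q) (hv : ∀ i p q, hid i p q ≤ vis i p q) (a m : ℕ)
    (h : a + m ≤ P.M ^ n) :
    (best P hid a m (c.pos a) (c.pos (a + m)) : ℝ) ≤ ∑ r ∈ range m, c.Dp (a + r) := by
  have h1 := best_slabs (P := P) (f := hid) hE a m 1 (fun r => c.pos (a + r))
  simp only [Nat.mul_one, Nat.add_zero] at h1
  have h2 : (best P hid a m (c.pos a) (c.pos (a + m)) : ℝ) ≤ ∑ r ∈ range m,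
      ((best P hid (a + r) 1 (c.pos (a + r)) (c.pos (a + (r + 1))) : ℕ) : ℝ) := by
    exact_mod_cast h1
  refine h2.trans (Finset.sum_le_sum fun r hr => ?_)
  rw [Finset.mem_range] at hr
  refine le_trans ?_ (c.cell (a + r) (by omega) {(a + r, c.lab 0 (a + r))}
    (Finset.mem_singleton_self _))
  exact_mod_cast best_mono hE _ _ _ _ fun x _ p q _ => hid_le_known hv _ _ _ _

/-- For an optimal chain the price of a slab is at most its hidden cost. -/
theorem Opt.slab {c : Chain P vis hid n} (ho : c.Opt) (hE : ∃ p q, Ed P p q)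
    (hv : ∀ i p q, hid i p q ≤ vis i p q) {j : ℕ} (hj : j ≤ n) {i : ℕ}
    (hi : i < P.M ^ (n - j)) :
    H808.bs P.M c.Dp j i ≤ best P hid (i * P.M ^ j) (P.M ^ j) (c.pos (i * P.M ^ j))
      (c.pos ((i + 1) * P.M ^ j)) := by
  have hn : (i + 1) * P.M ^ j ≤ P.M ^ n := by
    have h1 : (i + 1) * P.M ^ j ≤ P.M ^ (n - j) * P.M ^ j := Nat.mul_le_mul_right _ hi
    rwa [← pow_add, Nat.sub_add_cancel hj] at h1
  set a := i * P.M ^ j with ha
  set T := P.M ^ j with hT
  have ha' : (i + 1) * T = a + T := by rw [ha]; ring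
  rw [ha'] at hn ⊢
  obtain ⟨k, hk⟩ := Nat.exists_eq_add_of_le hn
  have e1 := best_add (P := P) (f := hid) hE 0 a (T + k) (c.pos 0) (c.pos a) (c.pos (P.M ^ n))
  have e2 := best_add (P := P) (f := hid) hE (0 + a) T k (c.pos a) (c.pos (a + T))
    (c.pos (P.M ^ n))
  have e3 := c.best_hid_le hE hv 0 a (by omega)
  have e4 := c.best_hid_le hE hv (a + T) k (by omega)
  have ho' : ∑ r ∈ range (P.M ^ n), c.Dp r ≤
      best P hid 0 (P.M ^ n) (c.pos 0) (c.pos (P.M ^ n)) := ho
  have e5 : ∑ r ∈ range (P.M ^ n), c.Dp r = ∑ r ∈ range a, c.Dp r +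
      ∑ r ∈ range T, c.Dp (a + r) + ∑ r ∈ range k, c.Dp (a + T + r) := by
    rw [hk, Finset.sum_range_add, Finset.sum_range_add]
  simp only [Nat.zero_add] at e1 e2 e3
  rw [← Nat.add_assoc, ← hk] at e1
  rw [← hk] at e4
  have e1' : (best P hid 0 (P.M ^ n) (c.pos 0) (c.pos (P.M ^ n)) : ℝ) ≤
      best P hid 0 a (c.pos 0) (c.pos a) + best P hid a (T + k) (c.pos a) (c.pos (P.M ^ n)) := by
    exact_mod_cast e1
  have e2' : (best P hid a (T + k) (c.pos a) (c.pos (P.M ^ n)) : ℝ) ≤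
      best P hid a T (c.pos a) (c.pos (a + T)) +
        best P hid (a + T) k (c.pos (a + T)) (c.pos (P.M ^ n)) := by
    exact_mod_cast e2
  have e6 : H808.bs P.M c.Dp j i = ∑ r ∈ range T, c.Dp (a + r) := rfl
  rw [e6]
  linarith

/-- The certified cost of a region is never below the price of the chain in its slab. -/
theorem Opt.lower {c : Chain P vis hid n} (ho : c.Opt) (hE : ∃ p q, Ed P p q)
    (hv : ∀ i p q, hid i p q ≤ vis i p q) {j : ℕ} (hj : j ≤ n) {i : ℕ}
    (hi : i < P.M ^ (n - j)) (b : ℤ) :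
    H808.bs P.M c.Dp j i ≤ c.CC mc ω j i b := by
  refine (ho.slab hE hv hj hi).trans ?_
  rw [CC_eq]
  exact_mod_cast best_mono hE _ _ _ _ fun x _ p q _ => hid_le_known hv _ _ _ _

/-- In the exact case the excess needs no truncation. -/
theorem Opt.ex_eq {c : Chain P vis hid n} (ho : c.Opt) (hM : 0 < P.M) (hE : ∃ p q, Ed P p q)
    (hv : ∀ i p q, hid i p q ≤ vis i p q) {j : ℕ} (hj : j ≤ n) {i : ℕ}
    (hi : i < P.M ^ (n - j)) (b : ℤ) :
    (c.along mc ω hE hv).ex j i b =
      ((c.CC mc ω j i b : ℝ) - H808.bs P.M c.Dp j i) / H808.bs P.M c.w j i := by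
  unfold H808.Along.ex
  have e1 : (c.along mc ω hE hv).DE j i = H808.bs P.M c.Dp j i := by
    unfold H808.Along.DE along
    simp only [add_zero]
  rw [e1]
  refine max_eq_right ?_
  refine div_nonneg ?_ (H808.bs_pos hM c.hw j i).le
  have := ho.lower mc ω hE hv hj hi b
  show (0 : ℝ) ≤ (c.CC mc ω j i b : ℝ) - _
  linarith

/-! ### Units -/

/-- The penalties add up along the chain. -/
def PenAdd : Prop := ∀ e j i : ℕ, j + (e + 1) ≤ n →
  P.pen (j + (e + 1)) (e + 1) (c.lab (j + (e + 1)) (i / P.M ^ (e + 1))) (c.lab j i) =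
    P.pen (j + (e + 1)) e (c.lab (j + (e + 1)) (i / P.M ^ (e + 1)))
      (c.lab (j + 1) (i / P.M)) +
    P.pen (j + 1) 1 (c.lab (j + 1) (i / P.M)) (c.lab j i)

theorem S_unit (hE : ∃ p q, Ed P p q) (hv : ∀ i p q, hid i p q ≤ vis i p q)
    (hp0 : ∀ j a, P.pen j 0 a a = 0) (hp : c.PenAdd) (e : ℕ) :
    ∀ (j x : ℕ), j + e ≤ n →
      (c.along mc ω hE hv).S j x = (c.along mc ω hE hv).S (j + e) x +
        (Xi P ω (j + e) e (x / P.M ^ j) +
          P.pen (j + e) e (c.lab (j + e) (x / P.M ^ (j + e))) (c.lab j (x / P.M ^ j))) := by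
  induction e with
  | zero =>
    intro j x _
    simp [Xi, hp0]
  | succ e ih =>
    intro j x hj
    have h1 := (c.along mc ω hE hv).S_succ (j := j) (by omega) x
    have h2 := ih (j + 1) x (by omega)
    have e0 : j + 1 + e = j + (e + 1) := by ring
    rw [e0] at h2
    have hdiv : ∀ a b : ℕ, x / P.M ^ a / P.M ^ b = x / P.M ^ (a + b) := by
      intro a b; rw [Nat.div_div_eq_div_mul, ← pow_add]
    have hdiv1 : ∀ a : ℕ, x / P.M ^ a / P.M = x / P.M ^ (a + 1) := by
      intro a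
      have := hdiv a 1
      rwa [pow_one] at this
    have h3 := hp e j (x / P.M ^ j) (by omega)
    rw [hdiv, hdiv1] at h3
    have e5 : Xi P ω (j + (e + 1)) (e + 1) (x / P.M ^ j) =
        Xi P ω (j + (e + 1)) e (x / P.M ^ (j + 1)) + ω.xi (j + 1) (x / P.M ^ j % P.M) := by
      unfold Xi
      rw [Finset.sum_range_succ]
      congr 1
      · refine Finset.sum_congr rfl fun y hy => ?_
        rw [Finset.mem_range] at hy
        have e6 : e + 1 - 1 - y = (e - 1 - y) + 1 := by omega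
        rw [hdiv, hdiv, e6]
        congr 3
        ring
      · have e7 : j + (e + 1) - e = j + 1 := by omega
        have e8 : e + 1 - 1 - e = 0 := by omega
        rw [e7, e8, pow_zero, Nat.div_one]
    have h4 : (c.along mc ω hE hv).sft j (x / P.M ^ j) =
        ω.xi (j + 1) (x / P.M ^ j % P.M) +
          P.pen (j + 1) 1 (c.lab (j + 1) (x / P.M ^ (j + 1))) (c.lab j (x / P.M ^ j)) := by
      show c.sft ω j (x / P.M ^ j) = _
      unfold sft
      rw [hdiv1]
    rw [h1, h2, h4, e5, h3]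
    ring

theorem Xi_mod (P : Par) (ω : Rnd) (j e m : ℕ) : Xi P ω j e (m % P.M ^ e) = Xi P ω j e m := by
  unfold Xi
  refine Finset.sum_congr rfl fun y hy => ?_
  rw [Finset.mem_range] at hy
  have h1 : P.M ^ e = P.M ^ (e - 1 - y) * P.M ^ (y + 1) := by
    rw [← pow_add]
    congr 1
    omega
  have h2 : m % P.M ^ e / P.M ^ (e - 1 - y) % P.M = m / P.M ^ (e - 1 - y) % P.M := by
    rw [h1, Nat.mod_mul_right_div_self, pow_succ]
    exact Nat.mod_mod_of_dvd _ (Dvd.intro_left _ rfl)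
  rw [h2]

/-- The unit costs which the machines of scale `s` see on the chain are the certified costs of the
chain at the same static index. -/
theorem hist_chain (hE : ∃ p q, Ed P p q) (hv : ∀ i p q, hid i p q ≤ vis i p q)
    (hp0 : ∀ j a, P.pen j 0 a a = 0) (hp : c.PenAdd) (s j0 x κ : ℕ) (hj : j0 + 2 ^ s ≤ n) :
    hist P ω vis hid (rd P mc ω vis hid) (j0 + 2 ^ s) (x / P.M ^ (j0 + 2 ^ s))
      (c.lab (j0 + 2 ^ s) (x / P.M ^ (j0 + 2 ^ s))) s κ (x / P.M ^ j0 % P.M ^ 2 ^ s)
      (c.lab j0 (x / P.M ^ j0)) (c.pos (x / P.M ^ j0 * P.M ^ j0))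
      (c.pos ((x / P.M ^ j0 + 1) * P.M ^ j0)) =
    c.CC mc ω j0 (x / P.M ^ j0)
      (κ - P.H - ((c.along mc ω hE hv).S j0 x - (c.along mc ω hE hv).S (j0 + 2 ^ s) x)) := by
  have h1 := c.S_unit mc ω hE hv hp0 hp (2 ^ s) j0 x hj
  have h2 : x / P.M ^ (j0 + 2 ^ s) * P.M ^ 2 ^ s + x / P.M ^ j0 % P.M ^ 2 ^ s =
      x / P.M ^ j0 := by
    rw [pow_add, ← Nat.div_div_eq_div_mul]
    exact Nat.div_add_mod' _ _
  have h3 : uidx P ω (j0 + 2 ^ s) (c.lab (j0 + 2 ^ s) (x / P.M ^ (j0 + 2 ^ s))) s κ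
      (x / P.M ^ j0 % P.M ^ 2 ^ s) (c.lab j0 (x / P.M ^ j0)) =
      κ - P.H - ((c.along mc ω hE hv).S j0 x - (c.along mc ω hE hv).S (j0 + 2 ^ s) x) := by
    unfold uidx
    rw [h1, Xi_mod]
    push_cast
    ring
  unfold hist CC cR
  rw [Nat.add_sub_cancel, h3, h2]

end Chain

end Vale.Agent.P315.H838
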