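import Vale.Agent.P315.H808.Cut
import Vale.Agent.P315.H838.Unit

/-!
P315: `Acc.Sys` of the query theorem (`H808/Cut.lean`) in slab form: averages, gain and the left
side of the machine inequality of a top are sums over the units, in terms of the own index
`lo + b - S` of the top.
-/

set_option autoImplicit false

open Finset

namespace Vale.Agent.P315.H808

namespace Along

open Vale.Agent.P315.Acc

variable {M n : ℕ} (A : Along M n)

/-- Own index of the top of scale `s` above the leaf `x` at the static index `b`. -/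
def own (lo : ℤ) (s a x b : ℕ) : ℤ := lo + b - A.S (a * 2 ^ s + 2 ^ s) x

/-- Excess of the unit `k` at the own index `b` of the top. -/
noncomputable def eu (s a k : ℕ) (b : ℤ) : ℝ :=
  A.ex (a * 2 ^ s) k (b - A.US (a * 2 ^ s) (2 ^ s) k)

/-- Weighted sum over the units of the slab `i`, divided by the weight of the slab. -/
noncomputable def avU (s a i : ℕ) (g : ℕ → ℝ) : ℝ :=
  (∑ u ∈ range (M ^ 2 ^ s), A.W (a * 2 ^ s) (i * M ^ 2 ^ s + u) * g (i * M ^ 2 ^ s + u)) /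
    A.W (a * 2 ^ s + 2 ^ s) i

theorem own_add (lo : ℤ) (s a x b c : ℕ) : A.own lo s a x (b + c) = A.own lo s a x b + c := by
  unfold own; push_cast; ring

theorem VU_eq (s a i : ℕ) (b : ℤ) :
    A.VU (a * 2 ^ s) (2 ^ s) i b = A.avU s a i fun k => A.eu s a k b := rfl

theorem avU_mono (hM : 0 < M) {s a i : ℕ} {f g : ℕ → ℝ} (h : ∀ k, f k ≤ g k) :
    A.avU s a i f ≤ A.avU s a i g :=
  div_le_div_of_nonneg_right
    (sum_le_sum fun _ _ => mul_le_mul_of_nonneg_left (h _) (A.W_pos hM _ _).le)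
    (A.W_pos hM _ _).le

section

variable [Nonempty (Fin (M ^ n))] {hM : 0 < M} {lo : ℤ} {smax NB D0 : ℕ}
    {q : ℕ → ℕ} {hD0 : 0 < D0} {hn : 2 ^ smax ∣ n}
    {hq : ∀ j i, j < n → i < M ^ (n - j) → A.sft j i ≤ q j}
    {hfin : (∑ l ∈ range n, (q l : ℤ)) ≤ lo + (NB * (16 ^ smax * D0) : ℕ)}

/-- Averages of `Sys` in slab form. -/
theorem cut_av {s a : ℕ} (ha : a < n / 2 ^ s) (x : Fin (M ^ n)) {F : Fin (M ^ n) → ℝ}
    {g : ℕ → ℝ} (hF : ∀ y : Fin (M ^ n), (y : ℕ) / M ^ (a * 2 ^ s + 2 ^ s) =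
      (x : ℕ) / M ^ (a * 2 ^ s + 2 ^ s) → F y = g ((y : ℕ) / M ^ (a * 2 ^ s))) :
    (A.cut hM lo smax NB D0 q hD0 hn hq hfin).av ((a + 1) * 2 ^ s) F x =
      A.avU s a ((x : ℕ) / M ^ (a * 2 ^ s + 2 ^ s)) g := by
  have h3 : (a + 1) * 2 ^ s = a * 2 ^ s + 2 ^ s := by ring
  unfold Acc.Sys.av avU
  rw [h3]
  exact A.avg_units' hM (top_le ha) x hF

/-- The curve of the top. -/
theorem cut_e_top {s a : ℕ} (ha : a < n / 2 ^ s) (x : Fin (M ^ n)) (b : ℕ) :
    (A.cut hM lo smax NB D0 q hD0 hn hq hfin).e ((a + 1) * 2 ^ s) x b =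
      A.ex (a * 2 ^ s + 2 ^ s) ((x : ℕ) / M ^ (a * 2 ^ s + 2 ^ s)) (A.own lo s a x b) := by
  have h3 : (a + 1) * 2 ^ s = a * 2 ^ s + 2 ^ s := by ring
  rw [h3, A.cut_e (top_le ha)]
  rfl

/-- The curve of a unit. -/
theorem cut_e_unit {s a : ℕ} (ha : a < n / 2 ^ s) (x y : Fin (M ^ n))
    (h : (y : ℕ) / M ^ (a * 2 ^ s + 2 ^ s) = (x : ℕ) / M ^ (a * 2 ^ s + 2 ^ s)) (b : ℕ) :
    (A.cut hM lo smax NB D0 q hD0 hn hq hfin).e (a * 2 ^ s) y b =
      A.eu s a ((y : ℕ) / M ^ (a * 2 ^ s)) (A.own lo s a x b) := by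
  have h1 := top_le ha
  rw [A.cut_e ((Nat.le_add_right _ _).trans h1)]
  exact A.e_unit h1 lo h b

theorem cut_V {s a : ℕ} (ha : a < n / 2 ^ s) (x : Fin (M ^ n)) (b : ℕ) :
    (A.cut hM lo smax NB D0 q hD0 hn hq hfin).V s a x b =
      A.avU s a ((x : ℕ) / M ^ (a * 2 ^ s + 2 ^ s)) fun k => A.eu s a k (A.own lo s a x b) := by
  unfold Acc.Sys.V
  exact A.cut_av ha x fun y hy => A.cut_e_unit ha x y hy b

theorem cut_G {s a : ℕ} (ha : a < n / 2 ^ s) (x : Fin (M ^ n)) (b : ℕ) :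
    (A.cut hM lo smax NB D0 q hD0 hn hq hfin).G s a x b =
      (A.avU s a ((x : ℕ) / M ^ (a * 2 ^ s + 2 ^ s)) fun k => A.eu s a k (A.own lo s a x b)) -
      A.ex (a * 2 ^ s + 2 ^ s) ((x : ℕ) / M ^ (a * 2 ^ s + 2 ^ s)) (A.own lo s a x b) := by
  unfold Acc.Sys.G
  rw [A.cut_V ha, A.cut_e_top ha]

/-- **The left side of the machine inequality** as a sum over the windows and the units. -/
theorem cut_lhs (R : Acc.Mach (A.cut hM lo smax NB D0 q hD0 hn hq hfin)) (C7 : ℝ)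
    {good : ℕ → ℕ → Fin (M ^ n) → Prop} {s a : ℕ} {gd : ℕ → Prop} (ha : a < n / 2 ^ s)
    (hg : ∀ y : Fin (M ^ n), good s a y ↔ gd ((y : ℕ) / M ^ (a * 2 ^ s)))
    (o : ℕ) (x : Fin (M ^ n)) (k : ℕ) :
    R.lhs C7 good o s a x k =
      ∑ i ∈ range ((A.cut hM lo smax NB D0 q hD0 hn hq hfin).D s + 1 - 2 ^ s),
        A.avU s a ((x : ℕ) / M ^ (a * 2 ^ s + 2 ^ s)) fun v =>
          (A.eu s a v (A.own lo s a x
              ((A.cut hM lo smax NB D0 q hD0 hn hq hfin).b0 o s k) + i) -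
            A.eu s a v (A.own lo s a x
              ((A.cut hM lo smax NB D0 q hD0 hn hq hfin).b0 o s k) + i + (2 ^ s : ℕ))) *
          Acc.ind (A.eu s a v (A.own lo s a x
              ((A.cut hM lo smax NB D0 q hD0 hn hq hfin).b0 o s k)) -
            A.eu s a v (A.own lo s a x
              ((A.cut hM lo smax NB D0 q hD0 hn hq hfin).b0 o s k) +
              ((A.cut hM lo smax NB D0 q hD0 hn hq hfin).D s : ℕ)) ≤ C7 * R.m o s a x k ∧
            gd v) := by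
  unfold Acc.Mach.lhs
  refine sum_congr rfl fun i _ => ?_
  refine A.cut_av ha x fun y hy => ?_
  unfold Acc.Sys.nuU Acc.Sys.nu
  rw [A.cut_e_unit ha x y hy, A.cut_e_unit ha x y hy, A.cut_e_unit ha x y hy,
    A.cut_e_unit ha x y hy, A.own_add, A.own_add, A.own_add]
  have e1 : (A.cut hM lo smax NB D0 q hD0 hn hq hfin).b1 o s k =
      (A.cut hM lo smax NB D0 q hD0 hn hq hfin).b0 o s k +
        (A.cut hM lo smax NB D0 q hD0 hn hq hfin).D s := by
    unfold Acc.Sys.b1 Acc.Sys.b0; ring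
  rw [e1, A.own_add]
  congr 1
  exact Acc.ind_congr (by rw [hg y])

end

end Along

end Vale.Agent.P315.H808
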