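import Vale.Agent.P315.H838.LhsW
import Vale.Agent.P315.H638.RegionW

/-!
P315: the quantities of `H638.region_h3bW` for a top are the gain and the left side of the machine
inequality of `Acc` for the system of curves `Along.cut`. Own round `t` = own index `t - H`.
-/

set_option autoImplicit false

open Finset

namespace Vale.Agent.P315.H808

namespace Along

open Vale.Agent.P315.Acc Vale.Agent.P315.H638

variable {M n : ℕ} (A : Along M n)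

/-- Prices of the units of slab `i`. -/
def uD (s a i : ℕ) (u : Fin (M ^ 2 ^ s)) : ℝ := A.DE (a * 2 ^ s) (i * M ^ 2 ^ s + u)

/-- Weights of the units of slab `i`. -/
def uW (s a i : ℕ) (u : Fin (M ^ 2 ^ s)) : ℝ := A.W (a * 2 ^ s) (i * M ^ 2 ^ s + u)

/-- Costs of the units of slab `i` in the own round `t` of the top. -/
def uC (H : ℕ) (s a i t : ℕ) (u : Fin (M ^ 2 ^ s)) : ℝ :=
  A.C (a * 2 ^ s) (i * M ^ 2 ^ s + u)
    ((t : ℤ) - H - A.US (a * 2 ^ s) (2 ^ s) (i * M ^ 2 ^ s + u))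

/-- Cost of the top in its own round `t`. -/
def tC (H : ℕ) (s a i t : ℕ) : ℝ := A.C (a * 2 ^ s + 2 ^ s) i ((t : ℤ) - H)

theorem sum_uW (s a i : ℕ) : ∑ u, A.uW s a i u = A.W (a * 2 ^ s + 2 ^ s) i := by
  unfold uW
  rw [Fin.sum_univ_eq_sum_range (fun u => A.W (a * 2 ^ s) (i * M ^ 2 ^ s + u)) (M ^ 2 ^ s),
    ← A.W_units]

theorem sum_uD (s a i : ℕ) : ∑ u, A.uD s a i u = A.DE (a * 2 ^ s + 2 ^ s) i := by
  unfold uD
  rw [Fin.sum_univ_eq_sum_range (fun u => A.DE (a * 2 ^ s) (i * M ^ 2 ^ s + u)) (M ^ 2 ^ s),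
    ← A.DE_units]

theorem uW_pos (hM : 0 < M) (s a i : ℕ) (u : Fin (M ^ 2 ^ s)) : 0 < A.uW s a i u :=
  A.W_pos hM _ _

theorem nx_uC (H s a i t : ℕ) (u : Fin (M ^ 2 ^ s)) :
    H132.nx (A.uD s a i u) (A.uW s a i u) (A.uC H s a i t u) =
      A.eu s a (i * M ^ 2 ^ s + u) ((t : ℤ) - H) := rfl

theorem sum_fin_avU (s a i : ℕ) (f : Fin (M ^ 2 ^ s) → ℝ) (g : ℕ → ℝ)
    (h : ∀ u, f u = g (i * M ^ 2 ^ s + u)) :
    (∑ u, A.uW s a i u * f u) / ∑ u, A.uW s a i u = A.avU s a i g := by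
  rw [A.sum_uW]
  unfold avU uW
  congr 1
  rw [← Fin.sum_univ_eq_sum_range
    (fun u => A.W (a * 2 ^ s) (i * M ^ 2 ^ s + u) * g (i * M ^ 2 ^ s + u)) (M ^ 2 ^ s)]
  exact sum_congr rfl fun u _ => by rw [h u]

theorem VW_eq (H s a i t : ℕ) :
    VW (A.uD s a i) (A.uW s a i) (A.uC H s a i t) =
      A.avU s a i fun k => A.eu s a k ((t : ℤ) - H) := by
  unfold VW
  exact A.sum_fin_avU s a i _ _ fun u => A.nx_uC H s a i t u

theorem eW_eq (H s a i t : ℕ) :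
    eW (A.uD s a i) (A.uW s a i) (A.tC H s a i t) =
      A.ex (a * 2 ^ s + 2 ^ s) i ((t : ℤ) - H) := by
  unfold eW
  rw [A.sum_uD, A.sum_uW]
  rfl

theorem lhsEW_eq (H s a i : ℕ) (gd : ℕ → Prop) (cN : ℝ) (h len b0 : ℕ) :
    lhsEW (A.uD s a i) (A.uW s a i) (fun u => gd (i * M ^ 2 ^ s + u)) cN
        (A.uC H s a i) h len b0 =
      ∑ j ∈ range (len + 1 - h), A.avU s a i fun v =>
        (A.eu s a v ((b0 : ℤ) - H + j) - A.eu s a v ((b0 : ℤ) - H + j + (h : ℕ))) *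
          ind (A.eu s a v ((b0 : ℤ) - H) - A.eu s a v ((b0 : ℤ) - H + (len : ℕ)) ≤ cN ∧ gd v) := by
  unfold lhsEW
  refine sum_congr rfl fun j _ => ?_
  refine A.sum_fin_avU s a i _ _ fun u => ?_
  rw [A.nx_uC, A.nx_uC, A.nx_uC, A.nx_uC]
  have e1 : ((b0 + j : ℕ) : ℤ) - H = (b0 : ℤ) - H + j := by push_cast; ring
  have e2 : ((b0 + j + h : ℕ) : ℤ) - H = (b0 : ℤ) - H + j + (h : ℕ) := by push_cast; ring
  have e3 : ((b0 + len : ℕ) : ℤ) - H = (b0 : ℤ) - H + (len : ℕ) := by push_cast; ring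
  rw [e1, e2, e3]

section

variable [Nonempty (Fin (M ^ n))] {hM : 0 < M} {lo : ℤ} {smax NB D0 : ℕ}
    {q : ℕ → ℕ} {hD0 : 0 < D0} {hn : 2 ^ smax ∣ n}
    {hq : ∀ j i, j < n → i < M ^ (n - j) → A.sft j i ≤ q j}
    {hfin : (∑ l ∈ range n, (q l : ℤ)) ≤ lo + (NB * (16 ^ smax * D0) : ℕ)}

/-- The gain at a static index is the gain in the own round. -/
theorem cut_G_own (H : ℕ) {s a : ℕ} (ha : a < n / 2 ^ s) (x : Fin (M ^ n)) {b t : ℕ}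
    (h : (t : ℤ) - H = A.own lo s a x b) :
    (A.cut hM lo smax NB D0 q hD0 hn hq hfin).G s a x b =
      VW (A.uD s a ((x : ℕ) / M ^ (a * 2 ^ s + 2 ^ s)))
        (A.uW s a ((x : ℕ) / M ^ (a * 2 ^ s + 2 ^ s)))
        (A.uC H s a ((x : ℕ) / M ^ (a * 2 ^ s + 2 ^ s)) t) -
      eW (A.uD s a ((x : ℕ) / M ^ (a * 2 ^ s + 2 ^ s)))
        (A.uW s a ((x : ℕ) / M ^ (a * 2 ^ s + 2 ^ s)))
        (A.tC H s a ((x : ℕ) / M ^ (a * 2 ^ s + 2 ^ s)) t) := by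
  rw [A.cut_G ha, A.VW_eq, A.eW_eq, h]

/-- The left side of the machine inequality of a block is the one of the own block. -/
theorem cut_lhs_own (H : ℕ) (R : Acc.Mach (A.cut hM lo smax NB D0 q hD0 hn hq hfin)) (C7 : ℝ)
    {good : ℕ → ℕ → Fin (M ^ n) → Prop} {s a : ℕ} {gd : ℕ → Prop} (ha : a < n / 2 ^ s)
    (hg : ∀ y : Fin (M ^ n), good s a y ↔ gd ((y : ℕ) / M ^ (a * 2 ^ s)))
    (o : ℕ) (x : Fin (M ^ n)) (k : ℕ) {t : ℕ}
    (h : (t : ℤ) - H = A.own lo s a x ((A.cut hM lo smax NB D0 q hD0 hn hq hfin).b0 o s k)) :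
    R.lhs C7 good o s a x k =
      lhsEW (A.uD s a ((x : ℕ) / M ^ (a * 2 ^ s + 2 ^ s)))
        (A.uW s a ((x : ℕ) / M ^ (a * 2 ^ s + 2 ^ s)))
        (fun u => gd ((x : ℕ) / M ^ (a * 2 ^ s + 2 ^ s) * M ^ 2 ^ s + u))
        (C7 * R.m o s a x k) (A.uC H s a ((x : ℕ) / M ^ (a * 2 ^ s + 2 ^ s)))
        (2 ^ s) ((A.cut hM lo smax NB D0 q hD0 hn hq hfin).D s) t := by
  rw [A.cut_lhs R C7 ha hg, A.lhsEW_eq, h]

end

end Along

end Vale.Agent.P315.H808
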