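import Vale.Agent.P315.H838.PlugFam
import Vale.Agent.P315.H244.ZF2
import Vale.Agent.P315.H808.Fin2W

/-!
P315, milestone 2, row M2-H3: what the machines owe to the query theorem (`H808.FinalFam2`):
machines, failures, and the machine inequality of the single classes, for every instance.
-/

set_option autoImplicit false

open Finset Filter
open scoped Classical

namespace Vale.Agent.P315.Fin2

open Vale.Agent.P315.C Vale.Agent.P315.Acc
open Vale.Agent.P315.H95 (cl bx ac wd clsPar)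
open Vale.Agent.P315.H808 (Chain Along FamOK2 MachRow2 rW)
open Vale.Agent.P315.H846 (Cut2 q2 Inst2 goodU)
open Vale.Agent.P315.H155 (famMPW famMach fam2 pW nodeW labX posX sF)
open Vale.Agent.P315.H763 (labL labL_ne actB)
open Vale.Agent.P315.H638 (RouteW ZT loT zT cnW fT a0T b0T lightT lhsEW VW eW)
open Vale.Agent.P315.H244 (WM WX R2 VN)
open Vale.Agent.P315.H659 (toRnd)
open Vale.Agent.P315.H731 (av)
open Vale.Agent.P315.H838 (exists_off cls_top)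

variable {m ℓ μ B w0 J S H Kc D1 n κr Cn q : ℕ} {N : ℤ} {vis hid : Leaf} {S0 : ℕ → ℕ}
  {C : Chain (clsPar (20 * m) ℓ μ B w0 J S H (Kc + 3) D1) vis hid n}

/-- **The failure event** of the top `(a * 2 ^ s + 2 ^ s, i)` and the scale `s`. -/
def failT (C : Chain (clsPar (20 * m) ℓ μ B w0 J S H (Kc + 3) D1) vis hid n)
    (ω : Rnd) (NR s a i : ℕ) : Prop :=
  H659.FailTopWA ((2 ^ (20 * m)) ^ 2 ^ s) (2 ^ s) (20 * m * 2 ^ s)
      (ZT (20 * m) w0 (a * 2 ^ s) (C.lab (a * 2 ^ s + 2 ^ s) i)) ((famMPW m).g s)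
      ((famMPW m).NL s) ((famMPW m).Dl s) ((famMPW m).R s) ((famMPW m).T s) ((famMPW m).Sh s)
      ((famMPW m).Rh s) (famMPW m).C μ B
      (loT (20 * m) w0 s (a * 2 ^ s) (C.lab (a * 2 ^ s + 2 ^ s) i))
      (cl (C.lab (a * 2 ^ s + 2 ^ s) i))
      (labL (20 * m) (Kc + 3) s (C.lab (a * 2 ^ s + 2 ^ s) i)) (labL_ne _ _ _ _)
      (a0T C ((famMPW m).g s) s (a * 2 ^ s) i) (b0T C ((famMPW m).g s) s (a * 2 ^ s) i)
      ((famMPW m).Sm s) NR
      (2 * ((((2 ^ (20 * m)) ^ 2 ^ s : ℕ) : ℝ) *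
        (ZT (20 * m) w0 (a * 2 ^ s) (C.lab (a * 2 ^ s + 2 ^ s) i) : ℕ)))
      ((((2 ^ (20 * m)) ^ 2 ^ s : ℕ) : ℝ) *
        (ZT (20 * m) w0 (a * 2 ^ s) (C.lab (a * 2 ^ s + 2 ^ s) i) : ℕ) * Par.dlm m s)
      (hist (clsPar (20 * m) ℓ μ B w0 J S H (Kc + 3) D1) ω vis hid
        (rd (clsPar (20 * m) ℓ μ B w0 J S H (Kc + 3) D1) (famMach m μ B w0 Kc) ω vis hid)
        (a * 2 ^ s + 2 ^ s) i (C.lab (a * 2 ^ s + 2 ^ s) i) s)
      (ω.coin (a * 2 ^ s + 2 ^ s) s)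

theorem drop_num {r v y : ℝ} (h1 : 1 / 8 ≤ r) (h2 : 0 < r * v) (h3 : r * v < y) :
    8 * v ≤ 64 * y := by
  have hr : 0 < r := by linarith
  have hv : 0 < v := (pos_iff_pos_of_mul_pos h2).1 hr
  have h4 : 1 / 8 * v ≤ r * v := mul_le_mul_of_nonneg_right h1 hv.le
  linarith

theorem dec_conv {s : Finset ℕ} {p : ℕ → Prop} (i1 i2 : DecidablePred p) {L X Y Qv : ℝ}
    (h : L ≤ X + (1 + ((@Finset.filter ℕ p i1 s).card : ℝ)) * Qv + Y) :
    L ≤ X + (1 + ((@Finset.filter ℕ p i2 s).card : ℝ)) * Qv + Y := by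
  have e : i1 = i2 := Subsingleton.elim _ _
  rw [← e]
  exact h

/-- **The machine inequality of the single classes.** -/
theorem machRow2 {eps0 : ℝ} {Sx : ℕ} (F : FamOK2 m n Sx ℓ μ B w0 Kc κr)
    (hI : Inst2 (clsPar (20 * m) ℓ μ B w0 J S H (Kc + 3) D1) (20 * m) w0 Kc κr vis hid n S0 C)
    (K : Cut2 (q2 (20 * m) ℓ μ B w0 J S H Kc D1 (famMach m μ B w0 Kc) n N Cn q) C)
    [Nonempty (Fin ((q2 (20 * m) ℓ μ B w0 J S H Kc D1 (famMach m μ B w0 Kc) n N Cn q).P.M ^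
      (q2 (20 * m) ℓ μ B w0 J S H Kc D1 (famMach m μ B w0 Kc) n N Cn q).n))]
    (hSx : K.smax ≤ Sx) (hS : K.smax < S) (hD0 : K.D0 = m ^ 2)
    (hH : n + 16 ^ K.smax * m ^ 2 ≤ H) :
    MachRow2 eps0 5360 229 5200 m K (goodU (20 * m) n C.lab) (rW K)
      (fun w o s a x => failT C (toRnd J w)
        (K.NB * (16 ^ K.smax * K.D0) + (K.lo.toNat + o + H + 16 ^ K.smax * K.D0)) s a
        ((x : ℕ) / (2 ^ (20 * m)) ^ (a * 2 ^ s + 2 ^ s))) := by
  have hm := F.hm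
  have hμ := F.hμ
  have hg : ∀ s, 0 < (famMPW m).g s := fun s => by
    rw [H784.famMPW_g]; unfold Par.gF; positivity
  have hd : ∀ s, s ≤ K.smax → μ * (famMPW m).g s ∣ w0 := fun s hs => F.g_dvd_w0 (hs.trans hSx)
  have hnH : n ≤ H := (Nat.le_add_right _ _).trans hH
  refine ⟨fun w => R2 K w (H244.zfamF hI K w hμ hnH (fun s _ _ => hg s) (fun s _ h => hd s h)),
    fun w s _ _ => ?_, ?_⟩
  · rw [H244.R2_tau]
    exact F.tau_le s
  intro w o s a x ho h1 h2 ha' hfail l hl hlam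
  have htop : a * 2 ^ s + 2 ^ s < n := by
    have : (a + 1) * 2 ^ s = a * 2 ^ s + 2 ^ s := by ring
    rw [← this]; exact ha'
  have htl : (a + 1) * 2 ^ s = a * 2 ^ s + 2 ^ s := by ring
  have hi : (x : ℕ) / (2 ^ (20 * m)) ^ (a * 2 ^ s + 2 ^ s) <
      (2 ^ (20 * m)) ^ (n - (a * 2 ^ s + 2 ^ s)) :=
    Along.quot_lt (M := 2 ^ (20 * m)) (by positivity) htop.le x
  set i := (x : ℕ) / (2 ^ (20 * m)) ^ (a * 2 ^ s + 2 ^ s) with hidef
  set Zt := ZT (20 * m) w0 (a * 2 ^ s) (C.lab (a * 2 ^ s + 2 ^ s) i) with hZt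
  have hZ0 : 0 < Zt := H95.wd_pos F.hw0 _ _
  have hK0 : 0 < (2 ^ (20 * m)) ^ 2 ^ s := by positivity
  have hW0 : 0 < (K.al w).W (a * 2 ^ s + 2 ^ s) i := (K.al w).W_pos K.hM _ _
  -- the ratio
  have hr : rW K w s a x = (K.al w).W (a * 2 ^ s + 2 ^ s) i /
      (((2 ^ (20 * m)) ^ 2 ^ s * Zt : ℕ) : ℝ) := by
    rw [H808.rW_of_lt K w x ha', htl, H869.Units.wd_add]
  have hr8 : 1 / 8 ≤ rW K w s a x := by
    rw [hr, le_div_iff₀ (by exact_mod_cast Nat.mul_pos hK0 hZ0)]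
    have := H638.KZ_le_W hI (famMach m μ B w0 Kc) (toRnd J w) (i := i) htop
    rw [Nat.cast_mul]
    have h3 : (K.al w).W (a * 2 ^ s + 2 ^ s) i =
      (C.along (famMach m μ B w0 Kc) (toRnd J w) hI.pt hI.hid_le).W (a * 2 ^ s + 2 ^ s) i := rfl
    rw [h3]
    linarith
  have hcls : 3 / 32 * Par.thm m s < (1 / 2 : ℝ) ^ l := H784.cls_of_ratio hr8 hlam.1
  have hlZ : 2 ^ l ≤ Zt := F.two_pow_le_wd (h2.trans hSx) hcls _ _ _
  have hlen : (famMPW m).Dl s = (K.sys w).D s := by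
    show 16 ^ s * m ^ 2 = 16 ^ s * K.D0
    rw [hD0]
  have hlen0 : 0 < (famMPW m).Dl s := by
    show 0 < 16 ^ s * m ^ 2
    positivity
  have hlenS : (famMPW m).Dl s ≤ 16 ^ K.smax * m ^ 2 :=
    Nat.mul_le_mul_right _ (Nat.pow_le_pow_right (by norm_num) h2)
  obtain ⟨off, j0, hoff, hj0⟩ := exists_off
    (K.lo + o + H - (K.al w).S (a * 2 ^ s + 2 ^ s) x) hlen0
  have hnb : (K.sys w).nb s * (famMPW m).Dl s = K.NB * (16 ^ K.smax * K.D0) := by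
    rw [hlen]
    show K.NB * 16 ^ (K.smax - s) * (16 ^ s * K.D0) = _
    have h3 : 16 ^ (K.smax - s) * 16 ^ s = 16 ^ K.smax := by
      rw [← pow_add, Nat.sub_add_cancel h2]
    rw [← h3]
    ring
  have hNR : (((K.sys w).nb s : ℤ) + j0).toNat * (famMPW m).Dl s ≤
      K.NB * (16 ^ K.smax * K.D0) + (K.lo.toNat + o + H + 16 ^ K.smax * K.D0) := by
    have hz : ((((K.sys w).nb s : ℤ) + j0).toNat : ℤ) * ((famMPW m).Dl s : ℤ) ≤
        ((K.NB * (16 ^ K.smax * K.D0) +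
          (K.lo.toNat + o + H + 16 ^ K.smax * K.D0) : ℕ) : ℤ) := by
      rcases le_total 0 (((K.sys w).nb s : ℤ) + j0) with h | h
      · rw [Int.toNat_of_nonneg h, add_mul]
        have e1 : ((K.sys w).nb s : ℤ) * (famMPW m).Dl s =
            ((K.NB * (16 ^ K.smax * K.D0) : ℕ) : ℤ) := by exact_mod_cast hnb
        have e2 : K.lo ≤ K.lo.toNat := Int.self_le_toNat _
        have e3 : (off : ℤ) ≤ ((16 ^ K.smax * K.D0 : ℕ) : ℤ) := by
          rw [hD0]; exact_mod_cast hoff.le.trans hlenS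
        have e4 : (0 : ℤ) ≤ (K.al w).S (a * 2 ^ s + 2 ^ s) x := Int.natCast_nonneg _
        rw [e1, Nat.cast_add, Nat.cast_add, Nat.cast_add, Nat.cast_add]
        linarith
      · rw [Int.toNat_of_nonpos h, Nat.cast_zero, zero_mul]
        exact Int.natCast_nonneg _
    exact_mod_cast hz
  -- good units
  set gd : ℕ → Prop := fun k => ¬ H869.Units.Light (20 * m) (2 ^ s)
    (cl (C.lab (a * 2 ^ s + 2 ^ s) (k / (2 ^ (20 * m)) ^ 2 ^ s))) (C.lab (a * 2 ^ s) k) with hgdd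
  have hgd : ∀ u < (2 ^ (20 * m)) ^ 2 ^ s, gd (i * (2 ^ (20 * m)) ^ 2 ^ s + u) →
      ¬ lightT C s (a * 2 ^ s) i u := by
    intro u hu h
    have h3 : (i * (2 ^ (20 * m)) ^ 2 ^ s + u) / (2 ^ (20 * m)) ^ 2 ^ s = i := by
      rw [mul_comm, Nat.mul_add_div hK0, Nat.div_eq_of_lt hu, add_zero]
    rw [hgdd] at h
    simp only [h3] at h
    exact h
  have hgood : ∀ y : Fin ((2 ^ (20 * m)) ^ n), goodU (20 * m) n C.lab s a y ↔
      gd ((y : ℕ) / (2 ^ (20 * m)) ^ (a * 2 ^ s)) := by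
    intro y
    have h3 : (y : ℕ) / (2 ^ (20 * m)) ^ (a * 2 ^ s) / (2 ^ (20 * m)) ^ 2 ^ s =
        (y : ℕ) / (2 ^ (20 * m)) ^ (a * 2 ^ s + 2 ^ s) := by
      rw [Nat.div_div_eq_div_mul, ← pow_add]
    rw [hgdd]
    simp only [h3]
    unfold goodU
    rw [htl]
    constructor
    · rintro (h | h)
      · omega
      · exact h
    · exact fun h => Or.inr h
  have hdl72 : 72 * Par.dlm m s ≤ 1 := by
    have e1 := F.hdl s
    have e2 := F.hth s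
    have e3 := Par.dlm_pos m s
    linarith
  obtain ⟨Qv, err, hQ0, hQ, herr, hreg⟩ := plugFam hI (toRnd J w) hm h1
    (lt_of_le_of_lt h2 hS) htop hi hμ (hd s h2) (F.hth s) hdl72 hcls hlZ hoff (gd := gd) hgd
    (N := (((K.sys w).nb s : ℤ) + j0).toNat) (jc := j0.toNat) hfail hNR
  obtain ⟨hst, hact⟩ := cls_top (K.al w) (hM := K.hM) (lo := K.lo) (smax := K.smax)
    (NB := K.NB) (D0 := K.D0) (q := fun _ => K.qb) (hD0 := K.hD0) (hn := K.hn)
    (hq := K.sft_le w) (hfin := K.fin_le)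
    (R2 K w (H244.zfamF hI K w hμ hnH (fun s _ _ => hg s) (fun s _ h => hd s h)))
    (r := rW K w) (s := s) (a := a) (o := o) (l := l) (x := x)
    (WZ := fun b => (WM C (famMach m μ B w0 Kc) (toRnd J w) (famMPW m).g
      (labL (20 * m) (Kc + 3)) s (a * 2 ^ s + 2 ^ s) i b : ℝ))
    (W := (K.al w).W (a * 2 ^ s + 2 ^ s) i) hW0
    (fun k => H244.R2_m K w _ h1 h2 htop o x k)
    (V := fun κ => VN C (famMach m μ B w0 Kc) (toRnd J w) ((famMPW m).g s) s (a * 2 ^ s) i κ)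
    (H := H) (fun κ => congrArg Nat.cast (H244.WM_V (famMach m μ B w0 Kc) (toRnd J w)
      (famMPW m).g s (a * 2 ^ s) i κ))
    (fun κ => H244.VN_anti hI hμ (hg s) (hd s h2) htop.le hi κ)
    (c := H - n) (fun b b' hb hb' => congrArg Nat.cast
      (H244.WM_neg (famMach m μ B w0 Kc) (toRnd J w) htop.le hnH hb hb'))
    (X := (2 ^ (20 * m)) ^ 2 ^ s * Zt) (Nat.mul_pos hK0 hZ0) hr (len := (famMPW m).Dl s)
    (off := off) (by omega) hoff (j0 := j0) hlen hj0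
  refine ⟨Qv, err, hQ, herr, fun A hA => ?_⟩
  have key := (K.al w).topW (hM := K.hM) (lo := K.lo) (smax := K.smax)
    (NB := K.NB) (D0 := K.D0) (q := fun _ => K.qb) (hD0 := K.hD0) (hn := K.hn)
    (hq := K.sft_le w) (hfin := K.fin_le)
    (R2 K w (H244.zfamF hI K w hμ hnH (fun s _ _ => hg s) (fun s _ h => hd s h)))
    (C7 := 8) (good := goodU (20 * m) n C.lab) (s := s) (a := a) (gd := gd)
    ((Nat.le_div_iff_mul_le (by positivity)).2 ha'.le) hgood x (i := i) rfl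
    (H := H) (o := o) (off := off) (j0 := j0) (len := (famMPW m).Dl s) (nb := (K.sys w).nb s)
    hlen hj0 (cl := fun k => H295.clsR
      (R2 K w (H244.zfamF hI K w hμ hnH (fun s _ _ => hg s) (fun s _ h => hd s h)))
      (rW K w) o s a l x k) (cN := 64 * (1 / 2) ^ l)
    (fun k _ hc => ?_) (fun k _ hc => hst k hc)
    (act := actB ((2 ^ (20 * m)) ^ 2 ^ s) Zt ((famMPW m).g s)
          ((famMPW m).Dl s) μ B (loT (20 * m) w0 s (a * 2 ^ s) (C.lab (a * 2 ^ s + 2 ^ s) i))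
          (a0T C ((famMPW m).g s) s (a * 2 ^ s) i) (b0T C ((famMPW m).g s) s (a * 2 ^ s) i) l off
          (labL (20 * m) (Kc + 3) s (C.lab (a * 2 ^ s + 2 ^ s) i))
          (hist (clsPar (20 * m) ℓ μ B w0 J S H (Kc + 3) D1) (toRnd J w) vis hid
            (rd (clsPar (20 * m) ℓ μ B w0 J S H (Kc + 3) D1) (famMach m μ B w0 Kc)
              (toRnd J w) vis hid)
            (a * 2 ^ s + 2 ^ s) i (C.lab (a * 2 ^ s + 2 ^ s) i) s))
    (fun k _ j hj => hact k j hj) hlen0 hQ0 (fun A' k1 k2 k3 _ => dec_conv _ _ (hreg A' k1 k2 k3)) A hA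
  · rw [← hlen]
    exact key
  · -- the drop of a block of the class
    exact drop_num hr8 (lt_of_lt_of_le (by positivity) hc.1) hc.2

/-- The failure event is the one of `H659.FailReg`. -/
theorem failT_iff (C : Chain (clsPar (20 * m) ℓ μ B w0 J S H (Kc + 3) D1) vis hid n)
    (ω : Rnd) (NR s a i : ℕ) :
    failT C ω NR s a i ↔ H659.FailReg (famMPW m) (labL (20 * m) (Kc + 3))
      (fun _ _ => labL_ne _ _ _ _) (20 * m) μ B w0 (a * 2 ^ s + 2 ^ s) s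
      (C.lab (a * 2 ^ s + 2 ^ s) i)
      (a0T C ((famMPW m).g s) s (a * 2 ^ s) i) (b0T C ((famMPW m).g s) s (a * 2 ^ s) i) NR
      (2 * ((((2 ^ (20 * m)) ^ 2 ^ s : ℕ) : ℝ) *
        (ZT (20 * m) w0 (a * 2 ^ s) (C.lab (a * 2 ^ s + 2 ^ s) i) : ℕ)))
      ((((2 ^ (20 * m)) ^ 2 ^ s : ℕ) : ℝ) *
        (ZT (20 * m) w0 (a * 2 ^ s) (C.lab (a * 2 ^ s + 2 ^ s) i) : ℕ) * Par.dlm m s)
      (hist (clsPar (20 * m) ℓ μ B w0 J S H (Kc + 3) D1) ω vis hid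
        (rd (clsPar (20 * m) ℓ μ B w0 J S H (Kc + 3) D1) (famMach m μ B w0 Kc) ω vis hid)
        (a * 2 ^ s + 2 ^ s) i (C.lab (a * 2 ^ s + 2 ^ s) i) s)
      (ω.coin (a * 2 ^ s + 2 ^ s) s) := by
  unfold failT H659.FailReg
  rw [Nat.add_sub_cancel]

/-- **Probability of the failure event.** -/
theorem failT_prob {k cd : ℕ} {Sx : ℕ} {C : Chain (fam2 m k cd D1 n Sx ℓ μ B w0 Kc κr).P vis hid
      (fam2 m k cd D1 n Sx ℓ μ B w0 Kc κr).n} (hw0 : 0 < w0) {s a : ℕ} (hs : s ≤ Sx)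
    (htop : a * 2 ^ s + 2 ^ s ≤ n) (NR i : ℕ) :
    av (fun w : (fam2 m k cd D1 n Sx ℓ μ B w0 Kc κr).Seed =>
      ind (failT (m := m) (ℓ := ℓ) (μ := μ) (B := B) (w0 := w0) (J := 2 ^ k - 1) (S := Sx + 1)
        (H := famH m n Sx) (Kc := Kc) (D1 := D1) (n := n) C
        (toRnd (fam2 m k cd D1 n Sx ℓ μ B w0 Kc κr).P.J w) NR s a i)) ≤ H659.pF 2 m s := by
  have hZ : (0 : ℝ) < (ZT (20 * m) w0 (a * 2 ^ s) (C.lab (a * 2 ^ s + 2 ^ s) i) : ℕ) := by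
    exact_mod_cast H95.wd_pos hw0 _ _
  have hdl := Par.dlm_pos m s
  have hK : (0 : ℝ) < (((2 ^ (20 * m)) ^ 2 ^ s : ℕ) : ℝ) := by positivity
  have key := H659.failReg_prob (m := m) (k := k) (cd := cd) (D1 := D1) (n := n) (S := Sx)
    (ℓ := ℓ) (μ := μ) (B := B) (w0 := w0) (Kc := Kc) (κr := κr) vis hid (Cb := 2) (by norm_num)
    (a0 := a0T (m := 20 * m) (ℓ := ℓ) (μ := μ) (B := B) (w0 := w0) (J := 2 ^ k - 1)
      (S := Sx + 1) (H := famH m n Sx) (Kc := Kc) (D1 := D1) (n := n) C ((famMPW m).g s) s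
      (a * 2 ^ s) i)
    (b0 := b0T (m := 20 * m) (ℓ := ℓ) (μ := μ) (B := B) (w0 := w0) (J := 2 ^ k - 1)
      (S := Sx + 1) (H := famH m n Sx) (Kc := Kc) (D1 := D1) (n := n) C ((famMPW m).g s) s
      (a * 2 ^ s) i) (NR := NR)
    (Bd := 2 * ((((2 ^ (20 * m)) ^ 2 ^ s : ℕ) : ℝ) *
        (ZT (20 * m) w0 (a * 2 ^ s) (C.lab (a * 2 ^ s + 2 ^ s) i) : ℕ)))
    (d := (((2 ^ (20 * m)) ^ 2 ^ s : ℕ) : ℝ) *
        (ZT (20 * m) w0 (a * 2 ^ s) (C.lab (a * 2 ^ s + 2 ^ s) i) : ℕ) * Par.dlm m s)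
    (j := a * 2 ^ s + 2 ^ s) hs (by positivity) htop i (C.lab (a * 2 ^ s + 2 ^ s) i)
    (by positivity) (by positivity) (le_of_eq (by ring))
  refine le_trans (le_of_eq ?_) key
  congr 1
  funext w
  congr 1
  exact propext (failT_iff (m := m) (ℓ := ℓ) (μ := μ) (B := B) (w0 := w0) (J := 2 ^ k - 1)
    (S := Sx + 1) (H := famH m n Sx) (Kc := Kc) (D1 := D1) (n := n) C
    (toRnd (fam2 m k cd D1 n Sx ℓ μ B w0 Kc κr).P.J w) NR s a i)

/-- **What the machines owe to the query theorem of milestone 2.** -/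
theorem finalFam2 : H808.FinalFam2 5360 229 5200 2 := by
  refine H808.finalFam2_of fun eps0 _ _ => Eventually.of_forall ?_
  intro m k cd D1 n S ℓ μ B w0 Kc κr _ _ F vis hid S0 C hI K hne k1 k2 k3 k4 k5
  refine ⟨fun w o s a x => failT (m := m) (ℓ := ℓ) (μ := μ) (B := B) (w0 := w0)
      (J := 2 ^ k - 1) (S := S + 1) (H := famH m n S) (Kc := Kc) (D1 := D1) (n := n) C
      (toRnd (2 ^ k - 1) w)
      (K.NB * (16 ^ K.smax * K.D0) + (K.lo.toNat + o + famH m n S + 16 ^ K.smax * K.D0)) s a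
      ((x : ℕ) / (2 ^ (20 * m)) ^ (a * 2 ^ s + 2 ^ s)), ?_, ?_⟩
  · intro o s a x _ _ h2 h3
    refine failT_prob F.hw0 (h2.trans k2.le) ?_ _ _
    have : (a + 1) * 2 ^ s = a * 2 ^ s + 2 ^ s := by ring
    omega
  · have hne2 : Nonempty (Fin ((clsPar (20 * m) ℓ μ B w0 (2 ^ k - 1) (S + 1) (famH m n S)
      (Kc + 3) D1).M ^ n)) := hne
    refine machRow2 (m := m) (ℓ := ℓ) (μ := μ) (B := B) (w0 := w0) (J := 2 ^ k - 1)
      (S := S + 1) (H := famH m n S) (Kc := Kc) (D1 := D1) (n := n) F hI K k2.le ?_ k4 ?_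
    · omega
    · rw [k2]
      unfold famH
      exact Nat.add_le_add_right (Nat.le_add_right _ _) _

/-- **The query theorem of milestone 2.** -/
theorem stmtQT2 : H846.StmtQT2 fam2 :=
  H808.stmtQT2_of_final (by norm_num) (by norm_num) (by norm_num) (by norm_num) finalFam2

end Vale.Agent.P315.Fin2
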