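import Vale.Agent.P315.H838.ClsW
import Vale.Agent.P315.H638.PathW4
import Vale.Agent.P315.H763.PlugTop
import Vale.Agent.P315.H784.ErNumW

/-!
P315, milestone 2, row M2-H3: `H763.plugTop` for the route of `H638` and the numbers of
`H155.fam2`: the machine inequality in own rounds of one top, one class, one offset.
-/

set_option autoImplicit false

open Finset Filter

namespace Vale.Agent.P315.Fin2

open Vale.Agent.P315.C
open Vale.Agent.P315.H95 (cl bx ac wd clsPar)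
open Vale.Agent.P315.H808 (Chain Along)
open Vale.Agent.P315.H846 (Inst2)
open Vale.Agent.P315.H155 (famMPW famMach pW nodeW labX posX sF)
open Vale.Agent.P315.H763 (labL labL_ne actB)
open Vale.Agent.P315.H638 (RouteW ZT loT zT cnW fT a0T b0T lightT lhsEW VW eW)

/-- The rounding errors. -/
theorem num_y {m s Z : ℕ} (hm : 1 ≤ m) (hZ : 0 < Z) (h : (famMPW m).g s ∣ Z) :
    2 * (64 / (((famMPW m).g s : ℕ) : ℝ) + 8 / (((2 ^ (20 * m)) ^ 2 ^ s : ℕ) : ℝ) ^ 3) +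
      16 * (4 * ((Z / (famMPW m).g s : ℕ) : ℝ)) / (Z : ℝ) +
      2 * (8 * Par.dlm m s + 32 / (((famMPW m).g s : ℕ) : ℝ)) ≤ 384 * Par.dlm m s := by
  have h1 := H784.rt_le (s := s) hm
  have h2 : (0 : ℝ) < Z := by exact_mod_cast hZ
  have h3 : 32 / (((famMPW m).g s : ℕ) : ℝ) = 32 * Par.dlm m s := by
    rw [H784.famMPW_g, Par.div_gF]
  have h0 : (((famMPW m).g s : ℕ) : ℝ) ≠ 0 := by
    rw [H784.famMPW_g]
    unfold Par.gF
    positivity
  have h4 : 16 * (4 * ((Z / (famMPW m).g s : ℕ) : ℝ)) / (Z : ℝ) = 64 * Par.dlm m s := by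
    rw [Nat.cast_div h h0, H784.famMPW_g, Par.div_gF, div_eq_iff h2.ne']
    ring
  have h5 := Par.dlm_pos m s
  rw [h3, h4]
  linarith

section

variable {m ℓ μ B w0 J S H Kc D1 n κr : ℕ} {vis hid : Leaf} {S0 : ℕ → ℕ}

open Classical in
/-- **The machine inequality of one top in own rounds**, for the numbers of the family. -/
theorem plugFam {C : Chain (clsPar (20 * m) ℓ μ B w0 J S H (Kc + 3) D1) vis hid n}
    (hI : Inst2 (clsPar (20 * m) ℓ μ B w0 J S H (Kc + 3) D1) (20 * m) w0 Kc κr vis hid n S0 C)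
    (ω : Rnd) (hm : 24 ≤ m) {s a i : ℕ} (hs1 : 1 ≤ s) (hsS : s < S)
    (htop : a * 2 ^ s + 2 ^ s < n) (hi : i < (2 ^ (20 * m)) ^ (n - (a * 2 ^ s + 2 ^ s)))
    (hμ : 0 < μ) (hd : μ * (famMPW m).g s ∣ w0)
    (h48 : 48 * Par.thm m s ≤ 1) (hdl : 72 * Par.dlm m s ≤ 1)
    {l off : ℕ} (hl : 3 / 32 * Par.thm m s < (1 / 2 : ℝ) ^ l)
    (hlZ : 2 ^ l ≤ ZT (20 * m) w0 (a * 2 ^ s) (C.lab (a * 2 ^ s + 2 ^ s) i))
    (ho : off < (famMPW m).Dl s) {gd : ℕ → Prop}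
    (hgd : ∀ u < (2 ^ (20 * m)) ^ 2 ^ s, gd (i * (2 ^ (20 * m)) ^ 2 ^ s + u) →
      ¬ lightT C s (a * 2 ^ s) i u)
    {NR N jc : ℕ}
    (hF : ¬ H659.FailTopWA ((2 ^ (20 * m)) ^ 2 ^ s) (2 ^ s) (20 * m * 2 ^ s)
      (ZT (20 * m) w0 (a * 2 ^ s) (C.lab (a * 2 ^ s + 2 ^ s) i)) ((famMPW m).g s)
      ((famMPW m).NL s) ((famMPW m).Dl s) ((famMPW m).R s) ((famMPW m).T s) ((famMPW m).Sh s)
      ((famMPW m).Rh s) (famMPW m).C μ B
      (loT (20 * m) w0 s (a * 2 ^ s) (C.lab (a * 2 ^ s + 2 ^ s) i))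
      (cl (C.lab (a * 2 ^ s + 2 ^ s) i))
      (labL (20 * m) (Kc + 3) s (C.lab (a * 2 ^ s + 2 ^ s) i)) (labL_ne _ _ _ _)
      (a0T C ((famMPW m).g s) s (a * 2 ^ s) i) (b0T C ((famMPW m).g s) s (a * 2 ^ s) i)
      ((famMPW m).Sm s) NR
      (2 * ((((2 ^ (20 * m)) ^ 2 ^ s : ℕ) : ℝ) *
        (ZT (20 * m) w0 (a * 2 ^ s) (C.lab (a * 2 ^ s + 2 ^ s) i) : ℕ)))
      ((((2 ^ (20 * m)) ^ 2 ^ s : ℕ) : ℝ) *
        (ZT (20 * m) w0 (a * 2 ^ s) (C.lab (a * 2 ^ s + 2 ^ s) i) : ℕ) * Par.dlm m s)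
      (hist (clsPar (20 * m) ℓ μ B w0 J S H (Kc + 3) D1) ω vis hid
        (rd (clsPar (20 * m) ℓ μ B w0 J S H (Kc + 3) D1) (famMach m μ B w0 Kc) ω vis hid)
        (a * 2 ^ s + 2 ^ s) i (C.lab (a * 2 ^ s + 2 ^ s) i) s)
      (ω.coin (a * 2 ^ s + 2 ^ s) s))
    (hNR : N * (famMPW m).Dl s ≤ NR) :
    ∃ Qv err : ℝ, 0 ≤ Qv ∧ Qv ≤ 2 ^ s * (5360 * (1 / 2) ^ l * (229 * m * 2 ^ s)) ∧
      err ≤ 16 ^ s * (m : ℝ) ^ 2 * (5200 * (Par.thm m s * (1 / 2) ^ l)) ∧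
      ∀ A' : ℕ → Prop,
        (∀ j, A' j → actB ((2 ^ (20 * m)) ^ 2 ^ s)
          (ZT (20 * m) w0 (a * 2 ^ s) (C.lab (a * 2 ^ s + 2 ^ s) i)) ((famMPW m).g s)
          ((famMPW m).Dl s) μ B (loT (20 * m) w0 s (a * 2 ^ s) (C.lab (a * 2 ^ s + 2 ^ s) i))
          (a0T C ((famMPW m).g s) s (a * 2 ^ s) i) (b0T C ((famMPW m).g s) s (a * 2 ^ s) i) l off
          (labL (20 * m) (Kc + 3) s (C.lab (a * 2 ^ s + 2 ^ s) i))
          (hist (clsPar (20 * m) ℓ μ B w0 J S H (Kc + 3) D1) ω vis hid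
            (rd (clsPar (20 * m) ℓ μ B w0 J S H (Kc + 3) D1) (famMach m μ B w0 Kc) ω vis hid)
            (a * 2 ^ s + 2 ^ s) i (C.lab (a * 2 ^ s + 2 ^ s) i) s) j) →
        (∀ j, A' j → jc ≤ j) → (∀ j, A' j → off ≤ j * (famMPW m).Dl s) →
        ∑ j ∈ (range N).filter A',
          lhsEW ((C.along (famMach m μ B w0 Kc) ω hI.pt hI.hid_le).uD s a i)
            ((C.along (famMach m μ B w0 Kc) ω hI.pt hI.hid_le).uW s a i)
            (fun u => gd (i * (2 ^ (20 * m)) ^ 2 ^ s + u)) (64 * (1 / 2) ^ l)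
            ((C.along (famMach m μ B w0 Kc) ω hI.pt hI.hid_le).uC H s a i) (2 ^ s)
            ((famMPW m).Dl s) (j * (famMPW m).Dl s - off) ≤
        2 * ∑ j ∈ (range N).filter A', ∑ i' ∈ range ((famMPW m).Dl s),
          (VW ((C.along (famMach m μ B w0 Kc) ω hI.pt hI.hid_le).uD s a i)
              ((C.along (famMach m μ B w0 Kc) ω hI.pt hI.hid_le).uW s a i)
              ((C.along (famMach m μ B w0 Kc) ω hI.pt hI.hid_le).uC H s a i
                (j * (famMPW m).Dl s - off + i')) -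
            eW ((C.along (famMach m μ B w0 Kc) ω hI.pt hI.hid_le).uD s a i)
              ((C.along (famMach m μ B w0 Kc) ω hI.pt hI.hid_le).uW s a i)
              ((C.along (famMach m μ B w0 Kc) ω hI.pt hI.hid_le).tC H s a i
                (j * (famMPW m).Dl s - off + i')))
        + (1 + (((range N).filter fun j =>
            (actB ((2 ^ (20 * m)) ^ 2 ^ s)
              (ZT (20 * m) w0 (a * 2 ^ s) (C.lab (a * 2 ^ s + 2 ^ s) i)) ((famMPW m).g s)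
              ((famMPW m).Dl s) μ B (loT (20 * m) w0 s (a * 2 ^ s) (C.lab (a * 2 ^ s + 2 ^ s) i))
              (a0T C ((famMPW m).g s) s (a * 2 ^ s) i)
              (b0T C ((famMPW m).g s) s (a * 2 ^ s) i) l off
              (labL (20 * m) (Kc + 3) s (C.lab (a * 2 ^ s + 2 ^ s) i))
              (hist (clsPar (20 * m) ℓ μ B w0 J S H (Kc + 3) D1) ω vis hid
                (rd (clsPar (20 * m) ℓ μ B w0 J S H (Kc + 3) D1) (famMach m μ B w0 Kc) ω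
                  vis hid)
                (a * 2 ^ s + 2 ^ s) i (C.lab (a * 2 ^ s + 2 ^ s) i) s) j ∧ jc ≤ j) ∧
              ¬ A' j).card : ℝ)) * Qv
        + (((range N).filter A').card : ℝ) * err := by
  have hm0 : 0 < 20 * m := by omega
  have hg : 0 < (famMPW m).g s := by rw [H784.famMPW_g]; unfold Par.gF; positivity
  obtain ⟨xs, hR⟩ := H638.exists_routeW hI htop.le hi hμ hg hd
  set Zt := ZT (20 * m) w0 (a * 2 ^ s) (C.lab (a * 2 ^ s + 2 ^ s) i) with hZt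
  have hZ0 : 0 < Zt := lt_of_lt_of_le (by positivity) hlZ
  have hgZ : (famMPW m).g s ∣ Zt := Dvd.intro _ hR.net.hZ.symm
  have hcl : cl (C.lab (a * 2 ^ s + 2 ^ s) i) ≤ Kc + 3 := hI.cl_lab_le _ _
  have hLBlen := H155.length_labL_le' (s := s) hm hcl
  have hpW := H155.pW_le (s := s) hm hLBlen
  have hp1 : 1 ≤ pW ((2 ^ (20 * m)) ^ 2 ^ s) ((famMPW m).g s)
    (labL (20 * m) (Kc + 3) s (C.lab (a * 2 ^ s + 2 ^ s) i)) := H155.pW_pos (labL_ne _ _ _ _)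
  obtain ⟨hlN, hlR⟩ := H784.cls_numW hl
  have hdlp := Par.dlm_pos m s
  have hrt1 : 64 / (((famMPW m).g s : ℕ) : ℝ) +
      8 / (((2 ^ (20 * m)) ^ 2 ^ s : ℕ) : ℝ) ^ 3 ≤ 1 := by
    have := H784.rt_le (m := m) (s := s) (by omega)
    linarith
  have he2 : 32 / (((famMPW m).g s : ℕ) : ℝ) = 32 * Par.dlm m s := by
    rw [H784.famMPW_g, Par.div_gF]
  have hZg : ((Zt / (famMPW m).g s : ℕ) : ℝ) = Zt * Par.dlm m s := by
    have h0 : (((famMPW m).g s : ℕ) : ℝ) ≠ 0 := by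
      rw [H784.famMPW_g]
      unfold Par.gF
      positivity
    rw [Nat.cast_div hgZ h0, H784.famMPW_g, Par.div_gF]
  refine ⟨_, _, ?_, ?_, ?_, fun A' h1 h2 h3 =>
    H763.plugTop (famMPW m) hI ω hm0 hs1 hsS htop hi (mc := famMach m μ B w0 Kc) rfl
      (K := (2 ^ (20 * m)) ^ 2 ^ s) (Z := Zt)
      (lo := loT (20 * m) w0 s (a * 2 ^ s) (C.lab (a * 2 ^ s + 2 ^ s) i))
      (ca := cl (C.lab (a * 2 ^ s + 2 ^ s) i)) (ta := C.lab (a * 2 ^ s + 2 ^ s) i)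
      (D := hist (clsPar (20 * m) ℓ μ B w0 J S H (Kc + 3) D1) ω vis hid
        (rd (clsPar (20 * m) ℓ μ B w0 J S H (Kc + 3) D1) (famMach m μ B w0 Kc) ω vis hid)
        (a * 2 ^ s + 2 ^ s) i (C.lab (a * 2 ^ s + 2 ^ s) i) s)
      rfl rfl rfl rfl rfl rfl ?_ (by show 0 < 2 ^ _; positivity) (by show 0 < 2 ^ _; positivity)
      (by show 0 < 66; norm_num)
      (a0 := a0T C ((famMPW m).g s) s (a * 2 ^ s) i)
      (b0 := b0T C ((famMPW m).g s) s (a * 2 ^ s) i) (l := l) (o := off)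
      hR.a0_le hR.b0_le hlN ho hlR hlZ (s' := sF m s) (H155.sF_pos m s) (H155.sF_lt hm s)
      (f := fT C ((famMPW m).g s) s (a * 2 ^ s) i xs)
      (rt := 64 / (((famMPW m).g s : ℕ) : ℝ) + 8 / (((2 ^ (20 * m)) ^ 2 ^ s : ℕ) : ℝ) ^ 3)
      (r0 := 4 * ((Zt / (famMPW m).g s : ℕ) : ℝ))
      (e2 := 32 / (((famMPW m).g s : ℕ) : ℝ)) (dl := Par.dlm m s) (cN := 64 * (1 / 2) ^ l)
      (e := 4 * ((2 ^ (20 * m)) ^ 2 ^ s * (Zt / (famMPW m).g s))) (NR := NR) (N := N) (jc := jc)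
      (gd := gd)
      (fun r _ => hR.hf r) H638.RouteW.f0 H638.RouteW.fK (by positivity) hrt1 (by positivity)
      (by positivity) (by rw [he2]; linarith) hdlp.le (by positivity)
      (fun t => hR.sum_le hI htop hi t)
      (fun t u hu hg' => hR.unit hI htop.le hi t hu (hgd u hu hg'))
      (fun u hu => hR.hkx hu) ?_ hR.he ?_ hF hNR A' h1 h2 h3⟩
  · positivity
  · have h := H784.num_Q (s := s) (l := l) hm hLBlen
    push_cast at h ⊢
    exact h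
  · exact H784.num_errY hm hp1 hpW hl (num_y (by omega) hZ0 hgZ)
  · show 2 ^ s ≤ 16 ^ s * m ^ 2
    calc 2 ^ s ≤ 16 ^ s := Nat.pow_le_pow_left (by norm_num) s
      _ ≤ _ := Nat.le_mul_of_pos_right _ (by positivity)
  · exact H784.num_cap hZ0 hl h48 (by rw [hZg])
  · exact hR.heW hI _ ω htop

end

end Vale.Agent.P315.Fin2
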