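import Vale.Agent.P315.H295.Step11

/-!
P315: classes of the machines with their own normalisation. The machines of a top measure the drops
of their value in units `1 / ρ` times larger (`ρ s a x ∈ (0, 1]`, constant on the top); class `l`
of the machines = `2 ^ (-(l+1)) ≤ ρ * m < 2 ^ (-l)`. The blocks of the classes which meet
`[3/4 th, 5/4 th']` are the active blocks.
-/

set_option autoImplicit false

open Finset

namespace Vale.Agent.P315.H838

open Vale.Agent.P315.Acc Vale.Agent.P315.H295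

variable {X : Type} [Fintype X] [Nonempty X] {S : Sys X} (R : Mach S)

/-- Class `l` of the machines. -/
def clM (ρ : ℕ → ℕ → X → ℝ) (o s a l : ℕ) (x : X) (k : ℕ) : Prop :=
  (1 / 2 : ℝ) ^ (l + 1) ≤ R.m o s a x k * ρ s a x ∧ R.m o s a x k * ρ s a x < (1 / 2 : ℝ) ^ l

/-- The classes used at the top. -/
def Lam (th th' : ℕ → ℝ) (ρ : ℕ → ℕ → X → ℝ) (s a : ℕ) (x : X) (l : ℕ) : Prop :=
  3 / 4 * th s < (1 / 2 : ℝ) ^ l / ρ s a x ∧ (1 / 2 : ℝ) ^ (l + 1) / ρ s a x ≤ 5 / 4 * th' s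

/-- The active blocks: `NL s` classes. -/
def actM (th th' : ℕ → ℝ) (NL : ℕ → ℕ) (ρ : ℕ → ℕ → X → ℝ) (o s a : ℕ) (x : X) (k : ℕ) : Prop :=
  ∃ l < NL s, Lam th th' ρ s a x l ∧ clM R ρ o s a l x k

theorem clM_disj {ρ : ℕ → ℕ → X → ℝ} {o s a l l' : ℕ} {x : X} {k : ℕ}
    (h : clM R ρ o s a l x k) (h' : clM R ρ o s a l' x k) : l = l' := by
  by_contra hne
  rcases Nat.lt_or_gt_of_ne hne with h1 | h1
  · have h2 : (1 / 2 : ℝ) ^ l' ≤ (1 / 2 : ℝ) ^ (l + 1) :=
      pow_le_pow_of_le_one (by norm_num) (by norm_num) h1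
    exact absurd (h.1.trans_lt h'.2) (not_lt.2 h2)
  · have h2 : (1 / 2 : ℝ) ^ l ≤ (1 / 2 : ℝ) ^ (l' + 1) :=
      pow_le_pow_of_le_one (by norm_num) (by norm_num) h1
    exact absurd (h'.1.trans_lt h.2) (not_lt.2 h2)

/-- A positive number below one lies in a dyadic class. -/
theorem exists_cls {y : ℝ} (h0 : 0 < y) (h1 : y < 1) :
    ∃ l : ℕ, (1 / 2 : ℝ) ^ (l + 1) ≤ y ∧ y < (1 / 2 : ℝ) ^ l := by
  have hex : ∃ n : ℕ, (1 / 2 : ℝ) ^ n ≤ y := by
    obtain ⟨n, hn⟩ := exists_pow_lt_of_lt_one h0 (by norm_num : (1 / 2 : ℝ) < 1)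
    exact ⟨n, hn.le⟩
  classical
  have hs := Nat.find_spec hex
  have hm := fun n (hn : n < Nat.find hex) => Nat.find_min hex hn
  have h2 : Nat.find hex ≠ 0 := by
    intro h
    rw [h, pow_zero] at hs
    linarith
  obtain ⟨l, hl⟩ := Nat.exists_eq_succ_of_ne_zero h2
  refine ⟨l, ?_, ?_⟩
  · rw [hl] at hs
    exact hs
  · exact not_le.1 (hm l (by omega))

/-- **The activity of the machines satisfies the requirements of Theorem A**, with `c = th'`. -/
theorem thrW {th th' : ℕ → ℝ} {NL : ℕ → ℕ} {ρ : ℕ → ℕ → X → ℝ} {ρ0 : ℝ} (hρ0 : 0 < ρ0)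
    (hth : ∀ s, 0 < th s) (hth'1 : ∀ s, 1 ≤ s → s ≤ S.smax → 5 / 4 * th' s < 1)
    (htau : ∀ s, 1 ≤ s → s ≤ S.smax → 1000 * R.tau s ≤ th s)
    (hρ : ∀ s a x, ρ0 ≤ ρ s a x ∧ ρ s a x ≤ 1)
    (hmeas : ∀ s a x y, S.q ((a + 1) * 2 ^ s) x = S.q ((a + 1) * 2 ^ s) y → ρ s a x = ρ s a y)
    (hNL : ∀ s, 1 ≤ s → s ≤ S.smax → (1 / 2 : ℝ) ^ NL s ≤ 3 / 4 * th s * ρ0) :
    ∃ P : Thr S R, P.th = th ∧ P.th' = th' ∧ P.c = th' ∧ P.act = actM R th th' NL ρ := by
  have hpos : ∀ s a x, 0 < ρ s a x := fun s a x => hρ0.trans_le (hρ s a x).1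
  refine ⟨{ th := th, th' := th', c := th', act := actM R th th' NL ρ, th_pos := hth,
            tau_le := htau, act_meas := ?_, act_of := ?_, act_low := ?_, act_up := ?_ },
    rfl, rfl, rfl, rfl⟩
  · intro o s a x y k hxy
    have h1 := hmeas s a x y hxy
    have h2 : R.m o s a x k = R.m o s a y k := by
      unfold Mach.m
      rw [R.omMeas s a x y hxy]
    unfold actM clM Lam
    rw [h1, h2]
  · intro o s a x k hs1 hs2 hm1 hm2
    have hr := hρ s a x
    have hr0 := hpos s a x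
    have hm0 : 0 < R.m o s a x k := by have := hth s; linarith
    have hy0 : 0 < R.m o s a x k * ρ s a x := mul_pos hm0 hr0
    have hy1 : R.m o s a x k * ρ s a x < 1 := by
      have h1 := hth'1 s hs1 hs2
      have h2 : R.m o s a x k * ρ s a x ≤ R.m o s a x k * 1 :=
        mul_le_mul_of_nonneg_left hr.2 hm0.le
      linarith
    obtain ⟨l, hl1, hl2⟩ := exists_cls hy0 hy1
    refine ⟨l, ?_, ⟨?_, ?_⟩, hl1, hl2⟩
    · by_contra hc
      have h1 : (1 / 2 : ℝ) ^ l ≤ (1 / 2 : ℝ) ^ NL s :=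
        pow_le_pow_of_le_one (by norm_num) (by norm_num) (not_lt.1 hc)
      have h2 := hNL s hs1 hs2
      have h3 : 3 / 4 * th s * ρ0 ≤ R.m o s a x k * ρ s a x :=
        mul_le_mul hm1 hr.1 hρ0.le hm0.le
      linarith
    · rw [lt_div_iff₀ hr0]
      exact (mul_le_mul_of_nonneg_right hm1 hr0.le).trans_lt hl2
    · rw [div_le_iff₀ hr0]
      exact hl1.trans (mul_le_mul_of_nonneg_right hm2 hr0.le)
  · rintro o s a x k hs1 hs2 ⟨l, -, ⟨h1, -⟩, h3, -⟩
    have hr0 := hpos s a x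
    rw [lt_div_iff₀ hr0] at h1
    have h4 : (1 / 2 : ℝ) ^ (l + 1) = (1 / 2 : ℝ) ^ l / 2 := by rw [pow_succ]; ring
    have h5 : 3 / 8 * th s * ρ s a x ≤ R.m o s a x k * ρ s a x := by
      rw [h4] at h3
      linarith
    exact le_of_mul_le_mul_right h5 hr0
  · rintro o s a x k hs1 hs2 ⟨l, -, ⟨-, h2⟩, -, h3⟩
    have hr0 := hpos s a x
    rw [div_le_iff₀ hr0] at h2
    have h4 : (1 / 2 : ℝ) ^ (l + 1) = (1 / 2 : ℝ) ^ l / 2 := by rw [pow_succ]; ring
    have h0 : 0 < (1 / 2 : ℝ) ^ (l + 1) / ρ s a x := div_pos (by positivity) hr0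
    have h6 : 0 < 5 / 4 * th' s := by
      rw [← div_le_iff₀ hr0] at h2
      linarith
    have h5 : R.m o s a x k * ρ s a x ≤ 3 * th' s * ρ s a x := by
      rw [h4] at h2
      have : 0 < th' s * ρ s a x := mul_pos (by linarith) hr0
      nlinarith
    exact le_of_mul_le_mul_right h5 hr0

/-- **From the classes to the union form.** -/
theorem h3bU_of_classes {th th' : ℕ → ℝ} {NL : ℕ → ℕ} {ρ : ℕ → ℕ → X → ℝ} {C7 : ℝ} {L : ℕ → ℝ}
    {good : ℕ → ℕ → X → Prop} {Cap : ℕ → ℕ → ℕ → X → ℝ} {Fail : ℕ → ℕ → ℕ → X → Prop}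
    {o s a : ℕ} (hρ : ∀ x, 0 < ρ s a x) (hL : 0 ≤ L s)
    {Xl Cl : X → ℕ → ℝ}
    (hX : ∀ x l, l < NL s → Lam th th' ρ s a x l → ¬ Fail o s a x →
      Xl x l * ρ s a x ≤ 2 ^ s * L s * (1 / 2 : ℝ) ^ (l + 1))
    (hC0 : ∀ x l, l < NL s → 0 ≤ Cl x l)
    (hC : ∀ x, ¬ Fail o s a x → ∑ l ∈ range (NL s), Cl x l ≤ Cap o s a x)
    (hcls : ∀ x, ¬ Fail o s a x → ∀ l, l < NL s → Lam th th' ρ s a x l → ∀ A : Finset ℕ,
      (∀ k ∈ A, k < S.nb s ∧ clM R ρ o s a l x k) →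
      ∑ k ∈ A, R.lhs C7 good o s a x k ≤
        2 * ∑ k ∈ A, ∑ i ∈ range (S.D s), S.G s a x (S.b0 o s k + i) +
        Xl x l * (∑ k ∈ (range (S.nb s)).filter (fun k => k ∉ A), ind (clM R ρ o s a l x k)) +
        Cl x l) :
    H3bU R (actM R th th' NL ρ) C7 L good Cap Fail o s a := by
  classical
  intro x hx A hA
  set Ls := (range (NL s)).filter fun l => Lam th th' ρ s a x l with hLs
  have hcover : ∀ k ∈ A, ∃ l ∈ Ls, clM R ρ o s a l x k := by
    intro k hk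
    obtain ⟨l, hl, h1, h2⟩ := (hA k hk).2
    exact ⟨l, mem_filter.2 ⟨mem_range.2 hl, h1⟩, h2⟩
  -- splitting a sum over `A` into the classes
  have hsplit : ∀ f : ℕ → ℝ, ∑ k ∈ A, f k =
      ∑ l ∈ Ls, ∑ k ∈ A.filter (fun k => clM R ρ o s a l x k), f k := by
    intro f
    have h1 : ∀ l ∈ Ls, ∑ k ∈ A.filter (fun k => clM R ρ o s a l x k), f k =
        ∑ k ∈ A, if clM R ρ o s a l x k then f k else 0 := fun l _ => sum_filter _ _
    rw [sum_congr rfl h1, sum_comm]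
    refine sum_congr rfl fun k hk => ?_
    obtain ⟨l, hl, hkl⟩ := hcover k hk
    rw [sum_eq_single l, if_pos hkl]
    · intro l' _ hne
      rw [if_neg fun h => hne (clM_disj R h hkl)]
    · intro h; exact absurd hl h
  rw [hsplit, hsplit (fun k => ∑ i ∈ range (S.D s), S.G s a x (S.b0 o s k + i))]
  have hl0 : ∀ l ∈ Ls, l < NL s ∧ Lam th th' ρ s a x l := fun l hl =>
    ⟨mem_range.1 (mem_filter.1 hl).1, (mem_filter.1 hl).2⟩
  have h1 : ∀ l ∈ Ls, ∑ k ∈ A.filter (fun k => clM R ρ o s a l x k), R.lhs C7 good o s a x k ≤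
      2 * (∑ k ∈ A.filter (fun k => clM R ρ o s a l x k),
        ∑ i ∈ range (S.D s), S.G s a x (S.b0 o s k + i)) +
      2 ^ s * L s * (∑ k ∈ (range (S.nb s)).filter (fun k => k ∉ A),
        ind (clM R ρ o s a l x k) * R.m o s a x k) + Cl x l := by
    intro l hl
    obtain ⟨hl1, hl2⟩ := hl0 l hl
    refine (hcls x hx l hl1 hl2 (A.filter fun k => clM R ρ o s a l x k) fun k hk => ?_).trans ?_
    · exact ⟨(hA k (mem_filter.1 hk).1).1, (mem_filter.1 hk).2⟩
    refine add_le_add (add_le_add le_rfl ?_) le_rfl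
    have e1 : ∑ k ∈ (range (S.nb s)).filter
          (fun k => k ∉ A.filter fun k => clM R ρ o s a l x k), ind (clM R ρ o s a l x k) =
        ∑ k ∈ (range (S.nb s)).filter (fun k => k ∉ A), ind (clM R ρ o s a l x k) := by
      rw [sum_filter, sum_filter]
      refine sum_congr rfl fun k _ => ?_
      by_cases hk : clM R ρ o s a l x k
      · by_cases hkA : k ∈ A
        · rw [if_neg (by simp [hkA, hk]), if_neg (by simp [hkA])]
        · rw [if_pos (by simp [hkA]), if_pos hkA]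
      · rw [ind_false hk, ite_self, ite_self]
    rw [e1, mul_sum, mul_sum]
    refine sum_le_sum fun k _ => ?_
    by_cases hk : clM R ρ o s a l x k
    · rw [ind_true hk, mul_one, one_mul]
      have h2 := hX x l hl1 hl2 hx
      have h3 : 2 ^ s * L s * (1 / 2 : ℝ) ^ (l + 1) ≤
          2 ^ s * L s * (R.m o s a x k * ρ s a x) :=
        mul_le_mul_of_nonneg_left hk.1 (by positivity)
      have h4 : Xl x l * ρ s a x ≤ 2 ^ s * L s * R.m o s a x k * ρ s a x := by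
        linarith
      exact le_of_mul_le_mul_right h4 (hρ x)
    · rw [ind_false hk, mul_zero, zero_mul, mul_zero]
  refine (sum_le_sum h1).trans ?_
  rw [sum_add_distrib, sum_add_distrib, ← mul_sum, ← mul_sum]
  have h5 : ∑ l ∈ Ls, ∑ k ∈ (range (S.nb s)).filter (fun k => k ∉ A),
      ind (clM R ρ o s a l x k) * R.m o s a x k ≤
      ∑ k ∈ (range (S.nb s)).filter (fun k => k ∉ A),
        ind (actM R th th' NL ρ o s a x k) * R.m o s a x k := by
    rw [sum_comm]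
    refine sum_le_sum fun k _ => ?_
    rw [← sum_mul]
    by_cases hact : actM R th th' NL ρ o s a x k
    · obtain ⟨l, hl, hl1, hl2⟩ := hact
      rw [ind_true ⟨l, hl, hl1, hl2⟩]
      have hlm : l ∈ Ls := mem_filter.2 ⟨mem_range.2 hl, hl1⟩
      rw [sum_eq_single l, ind_true hl2]
      · intro l' _ hne
        exact ind_false fun h => hne (clM_disj R h hl2)
      · intro h; exact absurd hlm h
    · rw [ind_false hact]
      rw [sum_eq_zero]
      intro l hl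
      obtain ⟨hl1, hl2⟩ := hl0 l hl
      exact ind_false fun h => hact ⟨l, hl1, hl2, h⟩
  have h6 : ∑ l ∈ Ls, Cl x l ≤ Cap o s a x := by
    refine le_trans ?_ (hC x hx)
    exact sum_le_sum_of_subset_of_nonneg (filter_subset _ _) fun l hl _ =>
      hC0 x l (mem_range.1 hl)
  have h7 : 2 ^ s * L s * (∑ l ∈ Ls, ∑ k ∈ (range (S.nb s)).filter (fun k => k ∉ A),
      ind (clM R ρ o s a l x k) * R.m o s a x k) ≤
      2 ^ s * L s * ∑ k ∈ (range (S.nb s)).filter (fun k => k ∉ A),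
        ind (actM R th th' NL ρ o s a x k) * R.m o s a x k :=
    mul_le_mul_of_nonneg_left h5 (by positivity)
  linarith

end Vale.Agent.P315.H838
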