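import Vale.Agent.P315.H838.Ident
import Vale.Agent.P315.H855.Transfer

/-!
P315, milestone 2: the machine inequality of one top, one class, one offset, in the static index:
`H638.region_h3bW` + `H855.static_of_own` for the system of curves `Along.cut`. The hypotheses are
the data of the machine only.
-/

set_option autoImplicit false

open Finset

namespace Vale.Agent.P315.H808

namespace Along

open Vale.Agent.P315.Acc Vale.Agent.P315.H638
open H782 (val xx)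
open H763 (GreedyW errW)
open H519 (blk win LstW Phi0)

variable {M n : ℕ} (A : Along M n)

theorem eu_anti (hM : 0 < M) {s a k : ℕ} (hk : k < M ^ (n - a * 2 ^ s)) (ha : a * 2 ^ s ≤ n)
    {b b' : ℤ} (h : b ≤ b') : A.eu s a k b' ≤ A.eu s a k b :=
  A.ex_anti hM ha hk (by omega)

theorem lhsEW_mono (hM : 0 < M) {H s a i : ℕ} (hi : i < M ^ (n - (a * 2 ^ s + 2 ^ s)))
    (ha : a * 2 ^ s + 2 ^ s ≤ n) (gd : ℕ → Prop) {c c' : ℝ} (hc : c ≤ c') (h len b0 : ℕ) :
    lhsEW (A.uD s a i) (A.uW s a i) (fun u => gd (i * M ^ 2 ^ s + u)) c (A.uC H s a i) h len b0 ≤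
    lhsEW (A.uD s a i) (A.uW s a i) (fun u => gd (i * M ^ 2 ^ s + u)) c' (A.uC H s a i) h
      len b0 := by
  unfold lhsEW
  refine sum_le_sum fun j _ => div_le_div_of_nonneg_right (sum_le_sum fun u _ => ?_)
    (sum_nonneg fun u _ => (A.uW_pos hM s a i u).le)
  refine mul_le_mul_of_nonneg_left ?_ (A.uW_pos hM s a i u).le
  refine mul_le_mul_of_nonneg_left (ind_mono fun hx => ⟨hx.1.trans hc, hx.2⟩) ?_
  rw [A.nx_uC, A.nx_uC, sub_nonneg]
  exact A.eu_anti hM (unit_lt ha hi u.2) ((Nat.le_add_right _ _).trans ha)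
    (by push_cast; omega)

section

variable {I E : Type*} [Fintype I] [Fintype E] [DecidableEq E] [Nonempty I] [Nonempty E]

open Classical in
/-- The machine inequality of one top in its own rounds, for the units of `A`. -/
theorem ownW (hM : 0 < M) {s a i H : ℕ} (htop : a * 2 ^ s + 2 ^ s ≤ n)
    (hi : i < M ^ (n - (a * 2 ^ s + 2 ^ s))) {gd : ℕ → Prop} {cN : ℝ} {off jc len N : ℕ}
    {act : ℕ → Prop} (hhl : 2 ^ s ≤ len)
    {ε : ℝ} (hε : 0 ≤ ε)
    (hlow : ∀ j i b, j ≤ n → i < M ^ (n - j) → A.DE j i - ε * A.W j i ≤ A.C j i b)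
    {em : Fin (M ^ 2 ^ s) → I} (hem : Function.Injective em) {PP : Set (I → E)}
    {aw bw : I → E → ℝ} (haw : ∀ i e, 0 < aw i e) {Am : ℝ} (haA : ∀ i e, aw i e ≤ Am)
    {D : ℕ → I → E → ℝ} (hD : ∀ t i e, D (t + 1) i e ≤ D t i e)
    {d rb rt : ℝ} {r : Fin (M ^ 2 ^ s) → ℝ} (hr0 : ∀ u, 0 ≤ r u)
    (hd : 0 ≤ d) (hrt : 0 ≤ rt) (hrb : ∑ u, r u ≤ A.W (a * 2 ^ s + 2 ^ s) i * rb)
    {p : I → E} (hp : p ∈ PP)
    (hsum : ∀ t, ∑ i', D t i' (p i') ≤ ∑ u, A.uC H s a i t u + A.W (a * 2 ^ s + 2 ^ s) i * rt)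
    (hr : ∀ t (u : Fin (M ^ 2 ^ s)), gd (i * M ^ 2 ^ s + u) →
      |D t (em u) (p (em u)) - A.uC H s a i t u| ≤ r u)
    {cap : ℝ} (hcap0 : 0 < cap)
    (hcap : ∀ u : Fin (M ^ 2 ^ s), gd (i * M ^ 2 ^ s + u) →
      A.uW s a i u * (cN + ε) + 2 * r u ≤ cap * aw (em u) (p (em u)))
    {T s' : ℕ} (hs' : 0 < s') (hsT : s' < T) {η : ℝ} (hη : 0 ≤ η)
    {pk : ℕ → ℕ → ℕ → I → E}
    (hpk : ∀ j1 t, blk off len t < N →
      win off len (2 ^ s) t → act (blk off len t) → act j1 → jc ≤ j1 →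
      j1 ≤ blk off len t →
      GreedyW aw (LstW D cap aw bw off len (2 ^ s) act j1 t) PP T
        ((Fintype.card I : ℝ) * η) (pk j1 t))
    (cert : ∀ j1 t, blk off len t < N →
      win off len (2 ^ s) t → act (blk off len t) → act j1 → jc ≤ j1 →
      j1 ≤ blk off len t →
      A.tC H s a i t ≤ val (D (t + 2 ^ s)) (xx (pk j1 t) T) + A.W (a * 2 ^ s + 2 ^ s) i * d)
    {phi : ℝ} (hphi : Phi0 aw bw p ≤ (Fintype.card I : ℝ) * phi)
    (A' : ℕ → Prop) (h1 : ∀ j, A' j → act j) (h2 : ∀ j, A' j → jc ≤ j)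
    (h3 : ∀ j, A' j → off ≤ j * len) :
    ∑ j ∈ (range N).filter A',
        lhsEW (A.uD s a i) (A.uW s a i) (fun u => gd (i * M ^ 2 ^ s + u)) cN (A.uC H s a i)
          (2 ^ s) len (j * len - off) ≤
        2 * ∑ j ∈ (range N).filter A', ∑ i' ∈ range len,
          (VW (A.uD s a i) (A.uW s a i) (A.uC H s a i (j * len - off + i')) -
            eW (A.uD s a i) (A.uW s a i) (A.tC H s a i (j * len - off + i')))
        + (1 + (((range N).filter
            fun j => (act j ∧ jc ≤ j) ∧ ¬ A' j).card : ℝ)) *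
          (2 ^ s * ((Fintype.card I : ℝ) * cap / A.W (a * 2 ^ s + 2 ^ s) i * phi))
        + (((range N).filter A').card : ℝ) *
          (len * (2 * ε + 2 * rt + 2 * rb + 2 * d
            + (Fintype.card I : ℝ) * cap / A.W (a * 2 ^ s + 2 ^ s) i *
              (Am * errW (Fintype.card E) T s' + (T / s' + 1) * η
                + 3 * (Am * (Fintype.card E / T))))) := by
  have hj : a * 2 ^ s ≤ n := (Nat.le_add_right _ _).trans htop
  have hui : ∀ u : Fin (M ^ 2 ^ s), i * M ^ 2 ^ s + u < M ^ (n - a * 2 ^ s) := fun u =>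
    unit_lt htop hi u.2
  have hK : 0 < M ^ 2 ^ s := Nat.pow_pos hM
  have hne : Nonempty (Fin (M ^ 2 ^ s)) := ⟨⟨0, hK⟩⟩
  have h5 := region_h3bW (em := em) hem (PP := PP) (a := aw) (b := bw) haw haA (D := D) hD
    (cU := A.uC H s a i) (fun u t t' ht => A.anti _ _ hj (hui u) (by omega))
    (cR := A.tC H s a i) (DU := A.uD s a i) (w := A.uW s a i) (A.uW_pos hM s a i)
    (ε := ε) (d := d) (rb := rb) (rt := rt) (r := r) hε hr0 hd hrt
    (by rw [A.sum_uW]; exact hrb)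
    (fun t u => hlow _ _ _ hj (hui u))
    (fun t => by rw [A.sum_uD, A.sum_uW]; exact hlow _ _ _ htop hi)
    (fun t => by
      have h6 := A.H1_units (a * 2 ^ s) (2 ^ s) i ((t : ℤ) - H) htop hi
      rw [← Fin.sum_univ_eq_sum_range (fun u => A.C (a * 2 ^ s) (i * M ^ 2 ^ s + u)
        ((t : ℤ) - H - A.US (a * 2 ^ s) (2 ^ s) (i * M ^ 2 ^ s + u))) (M ^ 2 ^ s)] at h6
      exact h6)
    (p := p) hp (fun t => by rw [A.sum_uW]; exact hsum t)
    (gd := fun u => gd (i * M ^ 2 ^ s + u)) hr (cap := cap) (cN := cN) hcap0 hcap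
    (o := off) (len := len) (h := 2 ^ s) (by positivity) hhl (act := act) (A := A')
    (jc := jc) h1 h2 (N := N) h3 (T := T) (s := s') hs' hsT hη
    (pk := pk)
    (fun j1 t c1 c2 c3 c4 c5 c6 => hpk j1 t c1 c2 (h1 _ c3) c4 c5 c6)
    (fun j1 t c1 c2 c3 c4 c5 c6 => by
      rw [A.sum_uW]
      exact cert j1 t c1 c2 (h1 _ c3) c4 c5 c6)
    (phi := phi) hphi
  rw [A.sum_uW] at h5
  push_cast at h5
  exact h5

end

open Classical in
/-- `H855.static_of_own` with a comparison of the two sides. -/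
theorem static_cmp {lhsO GO : ℕ → ℝ} {off len nb : ℕ} {j0 : ℤ} (hlen : 0 < len)
    {act cl : ℕ → Prop} {Q err : ℝ} (hQ : 0 ≤ Q)
    (hact : ∀ k, k < nb → ∀ j : ℕ, (j : ℤ) = k + j0 → (act j ↔ cl k))
    (hst : ∀ k, k < nb → cl k → (off : ℤ) ≤ (k + j0) * len)
    (hreg : ∀ A : ℕ → Prop, (∀ j, A j → act j) → (∀ j, A j → j0.toNat ≤ j) →
      (∀ j, A j → off ≤ j * len) → (∀ j, A j → j < ((nb : ℤ) + j0).toNat) →
      ∑ j ∈ (range ((nb : ℤ) + j0).toNat).filter A, lhsO (j * len - off) ≤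
        2 * ∑ j ∈ (range ((nb : ℤ) + j0).toNat).filter A, ∑ i ∈ range len, GO (j * len - off + i)
        + (1 + (((range ((nb : ℤ) + j0).toNat).filter
            fun j => (act j ∧ j0.toNat ≤ j) ∧ ¬ A j).card : ℝ)) * Q
        + (((range ((nb : ℤ) + j0).toNat).filter A).card : ℝ) * err)
    (F : Finset ℕ) (hF : ∀ k ∈ F, k < nb ∧ cl k) {f : ℕ → ℝ} {g : ℕ → ℕ → ℝ}
    (hf : ∀ k ∈ F, f k ≤ lhsO (((k : ℤ) + j0) * len - off).toNat)
    (hg : ∀ k ∈ F, ∀ i, GO ((((k : ℤ) + j0) * len - off).toNat + i) = g k i) :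
    ∑ k ∈ F, f k ≤ 2 * ∑ k ∈ F, ∑ i ∈ range len, g k i
      + (1 + (((range nb).filter fun k => k ∉ F ∧ cl k).card : ℝ)) * Q + (F.card : ℝ) * err := by
  have h := H855.static_of_own (nb := nb) hlen hQ hact hst hreg F hF
  have h1 : ∑ k ∈ F, ∑ i ∈ range len, GO ((((k : ℤ) + j0) * len - off).toNat + i) =
      ∑ k ∈ F, ∑ i ∈ range len, g k i :=
    sum_congr rfl fun k hk => sum_congr rfl fun i _ => hg k hk i
  rw [h1] at h
  exact (sum_le_sum hf).trans h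

section

variable [Nonempty (Fin (M ^ n))] {hM : 0 < M} {lo : ℤ} {smax NB D0 : ℕ}
    {q : ℕ → ℕ} {hD0 : 0 < D0} {hn : 2 ^ smax ∣ n}
    {hq : ∀ j i, j < n → i < M ^ (n - j) → A.sft j i ≤ q j}
    {hfin : (∑ l ∈ range n, (q l : ℤ)) ≤ lo + (NB * (16 ^ smax * D0) : ℕ)}

/-- Own start of a static block. -/
theorem own_start (x : Fin (M ^ n)) {s a H o off len k : ℕ} {j0 : ℤ}
    (hlen : len = (A.cut hM lo smax NB D0 q hD0 hn hq hfin).D s)
    (hj0 : j0 * len - off = lo + o + H - A.S (a * 2 ^ s + 2 ^ s) x)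
    (h1 : (off : ℤ) ≤ (k + j0) * len) :
    (((((k : ℤ) + j0) * len - off).toNat : ℕ) : ℤ) - H =
      A.own lo s a x ((A.cut hM lo smax NB D0 q hD0 hn hq hfin).b0 o s k) := by
  rw [Int.toNat_of_nonneg (by linarith)]
  unfold own Acc.Sys.b0
  rw [← hlen]
  push_cast
  have h2 : ((k : ℤ) + j0) * len = k * len + j0 * len := by ring
  rw [h2]
  linarith

open Classical in
/-- **From own rounds to the static index**, for one class of the blocks of one top. -/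
theorem topW (R : Acc.Mach (A.cut hM lo smax NB D0 q hD0 hn hq hfin)) {C7 : ℝ}
    {good : ℕ → ℕ → Fin (M ^ n) → Prop} {s a : ℕ} {gd : ℕ → Prop} (ha : a < n / 2 ^ s)
    (hg : ∀ y : Fin (M ^ n), good s a y ↔ gd ((y : ℕ) / M ^ (a * 2 ^ s)))
    (x : Fin (M ^ n)) {i : ℕ} (hix : i = (x : ℕ) / M ^ (a * 2 ^ s + 2 ^ s))
    {H o off : ℕ} {j0 : ℤ} {len nb : ℕ}
    (hlen : len = (A.cut hM lo smax NB D0 q hD0 hn hq hfin).D s)
    (hj0 : j0 * len - off = lo + o + H - A.S (a * 2 ^ s + 2 ^ s) x)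
    {cl : ℕ → Prop} {cN : ℝ} (hcN : ∀ k, k < nb → cl k → C7 * R.m o s a x k ≤ cN)
    (hst : ∀ k, k < nb → cl k → (off : ℤ) ≤ (k + j0) * len)
    {act : ℕ → Prop} (hact : ∀ k, k < nb → ∀ j : ℕ, (j : ℤ) = k + j0 → (act j ↔ cl k))
    (hlen0 : 0 < len) {Q err : ℝ} (hQ : 0 ≤ Q)
    (hreg : ∀ A' : ℕ → Prop, (∀ j, A' j → act j) → (∀ j, A' j → j0.toNat ≤ j) →
      (∀ j, A' j → off ≤ j * len) → (∀ j, A' j → j < ((nb : ℤ) + j0).toNat) →
      ∑ j ∈ (range ((nb : ℤ) + j0).toNat).filter A',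
        lhsEW (A.uD s a i) (A.uW s a i) (fun u => gd (i * M ^ 2 ^ s + u)) cN (A.uC H s a i)
          (2 ^ s) len (j * len - off) ≤
        2 * ∑ j ∈ (range ((nb : ℤ) + j0).toNat).filter A', ∑ i' ∈ range len,
          (VW (A.uD s a i) (A.uW s a i) (A.uC H s a i (j * len - off + i')) -
            eW (A.uD s a i) (A.uW s a i) (A.tC H s a i (j * len - off + i')))
        + (1 + (((range ((nb : ℤ) + j0).toNat).filter
            fun j => (act j ∧ j0.toNat ≤ j) ∧ ¬ A' j).card : ℝ)) * Q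
        + (((range ((nb : ℤ) + j0).toNat).filter A').card : ℝ) * err)
    (F : Finset ℕ) (hF : ∀ k ∈ F, k < nb ∧ cl k) :
    ∑ k ∈ F, R.lhs C7 good o s a x k ≤
      2 * ∑ k ∈ F, ∑ i' ∈ range len, (A.cut hM lo smax NB D0 q hD0 hn hq hfin).G s a x
        ((A.cut hM lo smax NB D0 q hD0 hn hq hfin).b0 o s k + i')
      + (1 + (((range nb).filter fun k => k ∉ F ∧ cl k).card : ℝ)) * Q + (F.card : ℝ) * err := by
  have htop := top_le ha
  have hi : i < M ^ (n - (a * 2 ^ s + 2 ^ s)) := by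
    rw [hix]; exact quot_lt hM htop x
  refine static_cmp
    (lhsO := fun b => lhsEW (A.uD s a i) (A.uW s a i) (fun u => gd (i * M ^ 2 ^ s + u)) cN
      (A.uC H s a i) (2 ^ s) len b)
    (GO := fun t => VW (A.uD s a i) (A.uW s a i) (A.uC H s a i t) -
      eW (A.uD s a i) (A.uW s a i) (A.tC H s a i t))
    (nb := nb) (act := act) (cl := cl) hlen0 hQ hact hst hreg F hF
    (fun k hk => ?_) (fun k hk i' => ?_)
  · obtain ⟨hk1, hk2⟩ := hF k hk
    have h1 := A.own_start x hlen hj0 (hst k hk1 hk2)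
    rw [A.cut_lhs_own H R C7 ha hg o x k h1, ← hix, ← hlen]
    exact A.lhsEW_mono hM hi htop gd (hcN k hk1 hk2) _ _ _
  · obtain ⟨hk1, hk2⟩ := hF k hk
    have h1 := A.own_start x hlen hj0 (hst k hk1 hk2)
    have h2 : (((((k : ℤ) + j0) * len - off).toNat + i' : ℕ) : ℤ) - H =
        A.own lo s a x ((A.cut hM lo smax NB D0 q hD0 hn hq hfin).b0 o s k + i') := by
      rw [A.own_add, ← h1]
      push_cast
      ring
    rw [A.cut_G_own H ha x h2, ← hix]

end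

end Along

end Vale.Agent.P315.H808
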